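import Vale.Agent.P267.H955.Glued
import Vale.Agent.P267.H993.PhiVal
import Vale.Agent.P267.H983.Dens
import Vale.Agent.P267.H509.CWDens

/-!
# P267, RRK-JET part (C): the trace of `Φ` on the diagonal is minus the Riemann-Roch density
-/

set_option linter.unusedSectionVars false

open scoped Manifold ContDiff Topology ComplexConjugate Matrix
open Set Filter Vale.Agent.P267.H315 Vale.Agent.P267.H734 Vale.Agent.P267.FL Vale.Agent.P267.RR

noncomputable section

namespace Vale.Agent.P267.H955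

/-! ### traces -/

/-- the trace of an endomorphism of the fibre -/
def trL {r : ℕ} (L : EndF r) : ℂ := LinearMap.trace ℂ _ (L : (Fin r → ℂ) →ₗ[ℂ] (Fin r → ℂ))

lemma trL_mL {r : ℕ} (M : Matrix (Fin r) (Fin r) ℂ) : trL (mL M) = M.trace := by
  have h : ((mL M : EndF r) : (Fin r → ℂ) →ₗ[ℂ] (Fin r → ℂ)) = Matrix.toLin' M := by
    refine LinearMap.ext fun v => ?_
    rw [Matrix.toLin'_apply]
    rfl
  rw [trL, h, Matrix.trace_toLin'_eq]

lemma mL_add {r : ℕ} (M N : Matrix (Fin r) (Fin r) ℂ) : mL (M + N) = mL M + mL N := by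
  refine ContinuousLinearMap.ext fun v => ?_
  exact Matrix.add_mulVec M N v

lemma mL_neg {r : ℕ} (M : Matrix (Fin r) (Fin r) ℂ) : mL (-M) = - mL M := by
  refine ContinuousLinearMap.ext fun v => ?_
  exact Matrix.neg_mulVec v M

lemma mL_sub {r : ℕ} (M N : Matrix (Fin r) (Fin r) ℂ) : mL (M - N) = mL M - mL N := by
  rw [sub_eq_add_neg, mL_add, mL_neg, ← sub_eq_add_neg]

lemma mL_smul {r : ℕ} (c : ℂ) (M : Matrix (Fin r) (Fin r) ℂ) : mL (c • M) = c • mL M := by
  refine ContinuousLinearMap.ext fun v => ?_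
  exact Matrix.smul_mulVec c M v

lemma mL_fsum {r : ℕ} {κ : Type*} (s : Finset κ) (M : κ → Matrix (Fin r) (Fin r) ℂ) :
    mL (∑ i ∈ s, M i) = ∑ i ∈ s, mL (M i) := by
  classical
  induction s using Finset.induction_on with
  | empty =>
    simp only [Finset.sum_empty]
    refine ContinuousLinearMap.ext fun v => ?_
    exact Matrix.zero_mulVec v
  | insert a s ha ih => rw [Finset.sum_insert ha, Finset.sum_insert ha, mL_add, ih]

/-! ### the cocycles -/

variable {X : Type*} [TopologicalSpace X] [ChartedSpace C2 X] [IsManifold 𝓘(ℂ, C2) ω X]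
  {A : FinAt X}

lemma I_ee (j : Fin 2) : (Complex.I • (ee j : V)) = Pi.single j Complex.I := by
  unfold ee
  rw [← Pi.single_smul]
  simp

lemma dbv_eq_dzb {W : Type} [NormedAddCommGroup W] [NormedSpace ℂ W] (j : Fin 2) (f : V → W)
    (z : V) : dbv (ee j) f z = dzb j f z := by
  unfold dbv dzb
  rw [I_ee]
  rfl

/-- `J⁻¹` as a matrix -/
lemma J_inv_eq {a b : Fin A.N} {z : V} (hz : z ∈ A.ov a b) :
    A.J b a (A.tau a b z) = (A.J a b z)⁻¹ :=
  (Matrix.inv_eq_left_inv (FinAt.J_mul_inv' hz)).symm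

lemma E_inv_eq {r : ℕ} {B : Bun A r} {a b : Fin A.N} {z : V} (hz : z ∈ A.ov a b) :
    B.E b a (A.tau a b z) = (B.E a b z)⁻¹ := by
  refine (Matrix.inv_eq_left_inv ?_).symm
  rw [B.comp a b a z hz (FinAt.mem_ov_self hz.1), B.self a z hz.1]

/-- the entries of `∂_j J` -/
lemma dJ_apply {a b : Fin A.N} {z : V} (hz : z ∈ A.ov a b) (j l p : Fin 2) :
    (fderiv ℂ ((lat A).J a b) z (ee j)) (ee l) p = dz j (fun w => A.J a b w p l) z := by
  have hJ : DifferentiableAt ℂ ((lat A).J a b) z :=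
    (LAt.J_smooth (T := lat A) hz).differentiableAt (by simp)
  have h1 : HasFDerivAt (fun w => (lat A).J a b w (ee l) p)
      ((ContinuousLinearMap.proj (R := ℂ) (φ := fun _ : Fin 2 => ℂ) p).comp
        ((ContinuousLinearMap.apply ℂ V (ee l)).comp (fderiv ℂ ((lat A).J a b) z))) z :=
    (ContinuousLinearMap.proj (R := ℂ) (φ := fun _ : Fin 2 => ℂ) p).hasFDerivAt.comp z
      ((ContinuousLinearMap.apply ℂ V (ee l)).hasFDerivAt.comp z hJ.hasFDerivAt)
  have h2 : (fun w => A.J a b w p l) =ᶠ[𝓝 z] fun w => (lat A).J a b w (ee l) p := by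
    filter_upwards [(A.isOpen_ov a b).mem_nhds hz] with w hw
    exact (Jm_eq A hw p l).symm
  rw [dz_congr h2, dz_of_hol h1.differentiableAt, h1.fderiv]
  rfl

/-- `J⁻¹ ∂_j J` as a matrix -/
lemma al_eq {a b : Fin A.N} {z : V} (hz : z ∈ A.ov a b) (j i l : Fin 2) :
    (lat A).al a b z (ee j) (ee l) i = H509.cov (A.J a b) z j i l := by
  unfold LAt.al H509.cov
  rw [Matrix.mul_apply, ← J_inv_eq hz]
  change (lat A).J b a (A.tau a b z) (fderiv ℂ ((lat A).J a b) z (ee j) (ee l)) i = _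
  rw [LAt.J_apply]
  refine Finset.sum_congr rfl fun c _ => ?_
  rw [Matrix.of_apply, dJ_apply hz, Jm_eq A (FinAt.tau_mem hz)]

/-- `E⁻¹ ∂_j E` as a matrix -/
lemma ep_eq {r : ℕ} {B : Bun A r} {a b : Fin A.N} {z : V} (hz : z ∈ A.ov a b) (j : Fin 2) :
    (lbun B).ep a b z (ee j) = mL (H509.cov (B.E a b) z j) := by
  unfold LBun.ep H509.cov
  rw [mL_mul, ← E_inv_eq hz]
  congr 1
  have h0 : ∀ p q, DifferentiableAt ℂ (fun w => B.E a b w p q) z := fun p q =>
    (B.hol a b z hz p q).differentiableAt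
  have h1 : HasFDerivAt (fun w => mL (B.E a b w))
      (∑ p, ∑ q, (fderiv ℂ (fun w => B.E a b w p q) z).smulRight
        (mL (Matrix.single p q (1 : ℂ)))) z := by
    have h2 : (fun w => mL (B.E a b w)) =
        fun w => ∑ p, ∑ q, B.E a b w p q • mL (Matrix.single p q (1 : ℂ)) := by
      funext w; exact mL_sum _
    rw [h2]
    refine HasFDerivAt.fun_sum fun p _ => HasFDerivAt.fun_sum fun q _ => ?_
    have h3 : HasFDerivAt (fun w => B.E a b w p q • mL (Matrix.single p q (1 : ℂ)))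
        ((fderiv ℂ (fun w => B.E a b w p q) z).smulRight (mL (Matrix.single p q (1 : ℂ)))) z :=
      HasFDerivAt.smul_const (F := EndF r) (h0 p q).hasFDerivAt (mL (Matrix.single p q (1 : ℂ)))
    exact h3
  change fderiv ℂ (fun w => mL (B.E a b w)) z (ee j) = _
  rw [h1.fderiv, mL_sum]
  simp only [_root_.sum_apply, ContinuousLinearMap.smulRight_apply, Matrix.of_apply]
  refine Finset.sum_congr rfl fun p _ => Finset.sum_congr rfl fun q _ => ?_
  rw [dz_of_hol (h0 p q)]
  rfl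

/-- off `ov a b` the derivatives of `ρ_b` vanish -/
lemma dR_zero {a b : Fin A.N} {z : V} (hz : z ∈ A.O a) (hb : z ∉ A.ov a b) (j : Fin 2) :
    dbv (ee j) (fun z => ((lat A).R a b z : ℂ)) z = 0 := by
  have h1 : (fun z => ((lat A).R a b z : ℂ)) =ᶠ[𝓝 z] fun _ => 0 := by
    filter_upwards [(lat A).R_supp (a := a) (i := b) (FinAt.mem_ov_self hz) hb] with w hw
    simp [hw]
  rw [dbv_congr h1, dbv_const]

/-- symmetry of second derivatives -/
lemma fderiv_symm {W : Type} [NormedAddCommGroup W] [NormedSpace ℝ W] {F : VV → W} {x : VV}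
    (h : ContDiffAt ℝ ∞ F x) (u v : VV) :
    fderiv ℝ (fun y => fderiv ℝ F y u) x v = fderiv ℝ (fun y => fderiv ℝ F y v) x u := by
  have h2 : ContDiffAt ℝ 2 F x := h.of_le (WithTop.coe_le_coe.2 le_top)
  have hs : IsSymmSndFDerivAt ℝ F x := h2.isSymmSndFDerivAt (by simp)
  have h1 : DifferentiableAt ℝ (fderiv ℝ F) x :=
    (h2.fderiv_right (m := 1) (by norm_num)).differentiableAt (by norm_num)
  have h3 : ∀ v w : VV, fderiv ℝ (fun y => fderiv ℝ F y v) x w =
      fderiv ℝ (fderiv ℝ F) x w v := by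
    intro v w
    have := h1.hasFDerivAt.clm_apply (hasFDerivAt_const v x)
    rw [this.fderiv]
    simp
  rw [h3, h3, hs.eq]

/-- **the trace of `Φ` on the diagonal** -/
theorem tr_Ph {r : ℕ} (B : Bun A r) {a : Fin A.N} {z : V} (hz : z ∈ A.O a) :
    trL (Ph1 (aa (A.ov a a) ((lat A).s a) ((lbun B).t a))
      (ep1 (A.ov a a) ((lat A).s a) ((lbun B).t a)) (z, 0)) =
      - H509.dens (fun b x => (A.rho b x : ℂ)) (A.e a) (A.J a) (B.E a) z := by
  have hz' : z ∈ (lat A).ov a a := FinAt.mem_ov_self hz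
  set x : Fin 2 → Fin A.N → ℂ := fun k b => dbv (ee k) (fun z => ((lat A).R a b z : ℂ)) z with hx
  set al : Fin A.N → H509.MCov 2 := fun b => H509.cov (A.J a b) z with hal
  set ep : Fin A.N → H509.MCov r := fun b => H509.cov (B.E a b) z with hep
  set P : Fin 2 → H509.MCov 2 := fun k => (1 / 2 : ℂ) • ∑ b, x k b • al b with hP
  set e : Fin 2 → H509.MCov r := fun k => ∑ b, x k b • ep b with he
  have h1 : ∀ k i j l, P k j i l = (1 / 2 : ℂ) * fderiv ℝ (fun y => fderiv ℝ
      (aa (A.ov a a) ((lat A).s a) ((lbun B).t a) k) y (0, ee l)) (z, 0) (0, ee j) i := by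
    intro k i j l
    have h2 := LBun.jet_aa (lbun B) a k hz' (ee l) (ee j)
    rw [show fderiv ℝ (fun y => fderiv ℝ (aa (A.ov a a) ((lat A).s a) ((lbun B).t a) k) y
      (0, ee l)) (z, 0) (0, ee j) = _ from h2]
    rw [Finset.sum_apply]
    simp only [hP, Pi.smul_apply, Matrix.smul_apply, smul_eq_mul, Finset.sum_apply,
      Matrix.sum_apply]
    congr 1
    refine Finset.sum_congr rfl fun b _ => ?_
    by_cases hb : z ∈ A.ov a b
    · rw [al_eq hb]
    · have h0 : x k b = 0 := dR_zero hz hb k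
      rw [h0, dR_zero hz hb, zero_mul, zero_mul]
  have h2 : ∀ k j, mL (e k j) =
      fderiv ℝ (ep1 (A.ov a a) ((lat A).s a) ((lbun B).t a) k) (z, 0) (0, ee j) := by
    intro k j
    have h3 := LBun.jet_ep (lbun B) a k hz' (ee j)
    rw [show fderiv ℝ (ep1 (A.ov a a) ((lat A).s a) ((lbun B).t a) k) (z, 0) (0, ee j) = _
      from h3]
    simp only [he, Finset.sum_apply, Pi.smul_apply, mL_fsum, mL_smul]
    refine Finset.sum_congr rfl fun b _ => ?_
    by_cases hb : z ∈ A.ov a b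
    · rw [ep_eq hb]
    · have h0 : x k b = 0 := dR_zero hz hb k
      rw [h0, dR_zero hz hb]
      exact (zero_smul ℂ (mL (ep b j))).trans (zero_smul ℂ ((lbun B).ep a b z (ee j))).symm
  have hsym : ∀ k j i l, P k j i l = P k l i j := by
    intro k j i l
    rw [h1, h1]
    have h3 := ((lbun B).inp a).sh_aa k (((lbun B).inp a).mem_dW1 hz')
    have h4 := fderiv_symm h3.contDiffAt (0, ee l) (0, ee j)
    rw [show fderiv ℝ (fun y => fderiv ℝ (aa (A.ov a a) ((lat A).s a) ((lbun B).t a) k) y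
      (0, ee l)) (z, 0) (0, ee j) = _ from h4]
    rfl
  have h3 := H993.ph1_value_inp ((lbun B).inp a) hz' (fun i j l => P 0 j i l)
    (fun i j l => P 1 j i l) (fun i j l => h1 0 i j l) (fun i j l => h1 1 i j l)
    (fun j => (P 0 j).trace) (fun j => (P 1 j).trace)
    (fun j => by rw [Matrix.trace_fin_two, hsym 0 j 0 0, hsym 0 j 1 1])
    (fun j => by rw [Matrix.trace_fin_two, hsym 1 j 0 0, hsym 1 j 1 1])
    (fun k j => mL (e k j)) h2
  rw [show Ph1 (aa (A.ov a a) ((lat A).s a) ((lbun B).t a))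
      (ep1 (A.ov a a) ((lat A).s a) ((lbun B).t a)) (z, 0) = _ from h3]
  simp only [← mL_mul, ← mL_smul, ← mL_add, ← mL_sub, ← mL_neg, ← mL_one (r := r), trL_mL]
  have h4 := H983.density_eq (r : ℂ) (x 0) (x 1) al ep (P 0) (P 1) (e 0) (e 1) rfl rfl rfl rfl
  have h5 : H509.dens (fun b x => (A.rho b x : ℂ)) (A.e a) (A.J a) (B.E a) z =
      ∑ b, ∑ c, (x 0 b * x 1 c - x 1 b * x 0 c) *
        H983.Rabc (r : ℂ) (al b) (al c) (ep b) (ep c) := by
    unfold H509.dens
    refine Finset.sum_congr rfl fun b _ => Finset.sum_congr rfl fun c _ => ?_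
    have h6 : ∀ (b : Fin A.N) (j : Fin 2),
        H509.dbl (fun b x => (A.rho b x : ℂ)) (A.e a) z b j = x j b := by
      intro b j
      rw [hx]
      simp only
      rw [dbv_eq_dzb]
      rfl
    congr 1
    unfold H509.w2
    rw [h6, h6, h6, h6]
  rw [h5, ← h4]
  simp only [H983.w2, H983.tw, H983.trf, Matrix.trace_neg, Matrix.trace_add, Matrix.trace_sub,
    Matrix.trace_smul, Matrix.trace_one, Fintype.card_fin, smul_eq_mul,
    Matrix.trace_mul_comm (e 1 1) (e 0 0), Matrix.trace_mul_comm (e 1 0) (e 0 1)]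
  simp only [Matrix.trace_fin_two, Matrix.mul_apply, Fin.sum_univ_two]
  ring

end Vale.Agent.P267.H955
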