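import Vale.Agent.P267.H955.Near

/-!
# P267, RRK-GLOB (B1): the kernels in two charts
-/

set_option linter.unusedSectionVars false

open scoped Manifold ContDiff Topology ComplexConjugate Matrix
open Set Filter Metric Vale.Agent.P267.H315 Vale.Agent.P267.H734 Vale.Agent.P267.FL
  Vale.Agent.P267.RR Vale.Agent.P267.H156

noncomputable section

namespace Vale.Agent.P267.H955

variable {X : Type*} [TopologicalSpace X] [ChartedSpace C2 X] [IsManifold 𝓘(ℂ, C2) ω X]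
  {A : FinAt X} {r : ℕ} {B : Bun A r} {a b : Fin A.N} {z w : V} {y y' : VV}
  {D D' : KData (EndF r)}

lemma dt_det (M : Matrix (Fin 2) (Fin 2) ℂ) : dt M = M.det := by
  rw [Matrix.det_fin_two]
  rfl

lemma nsq_det (M : Matrix (Fin 2) (Fin 2) ℂ) : ((‖M.det‖ ^ 2 : ℝ) : ℂ) = dt M * conj (dt M) := by
  rw [dt_det, Complex.mul_conj, Complex.normSq_eq_norm_sq]

lemma T0_apply (v : Fin r → ℂ) : B.sb0.T a b z v = mL (B.E a b z) v := rfl

/-- `∑_p conj(J_pj) w_p = E v_j` -/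
lemma T1_rel (hw : w ∈ A.ov a b) (v : Fin 2 → Fin r → ℂ) (j : Fin 2) :
    conj (A.J a b w 0 j) • B.sb1.T a b w v 0 + conj (A.J a b w 1 j) • B.sb1.T a b w v 1 =
      mL (B.E a b w) (v j) := by
  have h := (Bun.compat1_iff (A := A) hw (B.E a b w) v (B.sb1.T a b w v)).1 rfl j
  rw [Fin.sum_univ_two] at h
  exact h

lemma T1_unique (hz : z ∈ A.ov a b) (u : Fin 2 → Fin r → ℂ) (u' : Fin 2 → Fin r → ℂ)
    (h : ∀ j, conj (A.J a b z 0 j) • u' 0 + conj (A.J a b z 1 j) • u' 1 = mL (B.E a b z) (u j)) :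
    u' = B.sb1.T a b z u :=
  (Bun.compat1_iff (A := A) hz (B.E a b z) u u').2 fun j => by
    rw [Fin.sum_univ_two]
    exact h j

lemma T2_rel (hw : w ∈ A.ov a b) (v : Fin r → ℂ) :
    conj (dt (A.J a b w)) • B.sb2.T a b w v = mL (B.E a b w) v := by
  rw [dt_det]
  exact (Bun.compat2_iff (A := A) hw (B.E a b w) v _).1 rfl

lemma T2_unique (hz : z ∈ A.ov a b) (u u' : Fin r → ℂ)
    (h : conj (dt (A.J a b z)) • u' = mL (B.E a b z) u) : u' = B.sb2.T a b z u := by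
  rw [dt_det] at h
  exact (Bun.compat2_iff (A := A) hz (B.E a b z) u _).2 h

/-- composition in `EndF` -/
lemma mulE (S T : EndF r) (v : Fin r → ℂ) : (S * T) v = S (T v) := rfl

section

variable (h : KData.Compat D D' y y' (A.J a b z) (A.J a b w) (mL (B.E a b z)) (mL (B.E a b w)))
include h

/-- `P`, degree one to zero -/
theorem cmpP0 (hw : w ∈ A.ov a b) (f : ℝ → ℂ) (v : Fin 2 → Fin r → ℂ) :
    ((‖(A.J a b w).det‖ ^ 2 : ℝ) : ℂ) • (D'.Kf f 2 y' (B.sb1.T a b w v 1) -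
      D'.Kf f 3 y' (B.sb1.T a b w v 0)) =
      B.sb0.T a b z (D.Kf f 2 y (v 1) - D.Kf f 3 y (v 0)) := by
  have h2 := congrArg (fun S : EndF r => S (v 1)) (h.Kf f 2)
  have h3 := congrArg (fun S : EndF r => S (v 0)) (h.Kf f 3)
  have e0 := T1_rel (B := B) hw v 0
  have e1 := T1_rel (B := B) hw v 1
  simp only [Fin.sum_univ_four, CJ, Matrix.cons_val_zero, Matrix.cons_val_one, Matrix.cons_val,
    zero_smul, zero_add, add_zero, smul_add, add_apply, smul_apply, mulE, ← e0, ← e1,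
    map_add, map_smul] at h2 h3
  rw [T0_apply, map_sub, ← h2, ← h3, nsq_det]
  simp only [dt, map_sub, map_mul]
  module

/-- `P`, degree two to one -/
theorem cmpP1 (hz : z ∈ A.ov a b) (hw : w ∈ A.ov a b) (f : ℝ → ℂ) (v : Fin r → ℂ) :
    ((‖(A.J a b w).det‖ ^ 2 : ℝ) : ℂ) • (fun k : Fin 2 => D'.Kf f (c2 k) y' (B.sb2.T a b w v)) =
      B.sb1.T a b z fun k => D.Kf f (c2 k) y v := by
  refine T1_unique hz _ _ fun j => ?_
  have h2 := congrArg (fun S : EndF r => S v) (h.Kf f (c2 j))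
  have e := T2_rel (B := B) hw v
  rw [nsq_det]
  simp only [Pi.smul_apply]
  change _ = (mL (B.E a b z) * D.Kf f (c2 j) y) v
  rw [← h2]
  fin_cases j <;>
  simp only [Fin.sum_univ_four, CJ, c2, Matrix.cons_val_zero, Matrix.cons_val_one, Matrix.cons_val,
    Fin.zero_eta, Fin.mk_one, Fin.isValue,
    zero_smul, zero_add, add_zero, smul_add, add_apply, smul_apply, mulE, ← e, map_smul] <;>
  module

theorem cmpS0 (f : ℝ → ℂ) (v : Fin r → ℂ) :
    ((‖(A.J a b w).det‖ ^ 2 : ℝ) : ℂ) • D'.Sf f 2 3 y' (B.sb0.T a b w v) =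
      B.sb0.T a b z (D.Sf f 2 3 y v) := by
  rw [nsq_det]
  exact congrArg (fun S : EndF r => S v) (h.int0 f)

theorem cmpS1 (hz : z ∈ A.ov a b) (hw : w ∈ A.ov a b) (f : ℝ → ℂ) (v : Fin 2 → Fin r → ℂ) :
    ((‖(A.J a b w).det‖ ^ 2 : ℝ) : ℂ) • (fun k : Fin 2 => D'.Sf f (c2 k) 2 y' (B.sb1.T a b w v 1) -
      D'.Sf f (c2 k) 3 y' (B.sb1.T a b w v 0)) =
      B.sb1.T a b z fun k => D.Sf f (c2 k) 2 y (v 1) - D.Sf f (c2 k) 3 y (v 0) := by
  refine T1_unique hz _ _ fun j => ?_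
  have h2 := congrArg (fun S : EndF r => S (v 1)) (h.Sf f (c2 j) 2)
  have h3 := congrArg (fun S : EndF r => S (v 0)) (h.Sf f (c2 j) 3)
  have e0 := T1_rel (B := B) hw v 0
  have e1 := T1_rel (B := B) hw v 1
  rw [nsq_det]
  simp only [Pi.smul_apply, map_sub]
  change _ = (mL (B.E a b z) * D.Sf f (c2 j) 2 y) (v 1) - (mL (B.E a b z) * D.Sf f (c2 j) 3 y) (v 0)
  rw [← h2, ← h3]
  fin_cases j <;>
  simp only [Fin.sum_univ_four, CJ, c2, Matrix.cons_val_zero, Matrix.cons_val_one, Matrix.cons_val,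
    Fin.zero_eta, Fin.mk_one, Fin.isValue, mul_zero, zero_mul,
    zero_smul, zero_add, add_zero, smul_add, add_apply, smul_apply, mulE, ← e0, ← e1, map_add,
    map_smul, dt, map_sub, map_mul] <;>
  module

theorem cmpS2 (hz : z ∈ A.ov a b) (hw : w ∈ A.ov a b) (f : ℝ → ℂ) (v : Fin r → ℂ) :
    ((‖(A.J a b w).det‖ ^ 2 : ℝ) : ℂ) • D'.Sf f 0 1 y' (B.sb2.T a b w v) =
      B.sb2.T a b z (D.Sf f 0 1 y v) := by
  refine T2_unique hz _ _ ?_
  have h2 := congrArg (fun S : EndF r => S v) (h.int2 f)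
  have e := T2_rel (B := B) hw v
  rw [nsq_det]
  change _ = (mL (B.E a b z) * D.Sf f 0 1 y) v
  rw [← h2]
  simp only [smul_apply, mulE, ← e, map_smul]
  module

end

end Vale.Agent.P267.H955
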