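import Vale.Agent.P267.H734.Coord

/-!
# P267, RRK-GLOB part A: the glued data `s`, `τ`, `h` in the charts of a finite atlas

`LAt I` : a finite atlas seen in its charts (domains `ov a b`, transition maps `ta a b`, partition of
unity `R a i` = `ρ_i` in the chart `a`). `LBun T A` : holomorphic transition functions with values in
the units of the algebra `A`.

* `T.s a (z,w) = ∑_i ρ_i(z) (Dψ_i)⁻¹ (ψ_i w - ψ_i z)`, `B.t a (z,w) = ∑_i ρ_i(z) E_i(z)⁻¹ E_i(w)`,
  `T.h a z = ∑_i ρ_i(z) (Dψ_i)^T conj(Dψ_i)`;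
* `LBun.inp : Inp (T.ov a a) (T.s a) (B.t a)`;
* transformation rules `s_trans`, `t_trans`, `h_trans`.
-/

set_option linter.unusedSectionVars false

open scoped ContDiff Topology ComplexConjugate
open Set Filter Vale.Agent.P267.H315 Vale.Agent.P267.H734

noncomputable section

namespace Vale.Agent.P267.H955

/-- A finite atlas seen in its charts. -/
structure LAt (I : Type) [Fintype I] where
  /-- the part of the chart `a` where the chart `b` is defined -/
  ov : I → I → Set V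
  /-- the transition maps -/
  ta : I → I → V → V
  /-- the partition of unity -/
  R : I → I → V → ℝ
  ov_open : ∀ a b, IsOpen (ov a b)
  ov_sub : ∀ {a b z}, z ∈ ov a b → z ∈ ov a a
  ta_mem : ∀ {a b c z}, z ∈ ov a b → z ∈ ov a c → ta a b z ∈ ov b c
  ta_ta : ∀ {a b c z}, z ∈ ov a b → z ∈ ov a c → ta b c (ta a b z) = ta a c z
  ta_self : ∀ {a z}, z ∈ ov a a → ta a a z = z
  hol : ∀ {a b z}, z ∈ ov a b → ContDiffAt ℂ ∞ (ta a b) z
  R_smooth : ∀ {a i z}, z ∈ ov a a → ContDiffAt ℝ ∞ (R a i) z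
  R_nonneg : ∀ {a i z}, z ∈ ov a a → 0 ≤ R a i z
  R_sum : ∀ {a z}, z ∈ ov a a → ∑ i, R a i z = 1
  R_trans : ∀ {a b z} (i), z ∈ ov a b → R b i (ta a b z) = R a i z
  R_supp : ∀ {a i z}, z ∈ ov a a → z ∉ ov a i → ∀ᶠ w in 𝓝 z, R a i w = 0

namespace LAt

variable {I : Type} [Fintype I] (T : LAt I)

/-- the Jacobian of the transition map -/
def J (a b : I) (z : V) : V →L[ℂ] V := fderiv ℂ (T.ta a b) z

/-- the entries of the Jacobian matrix (row `p`, column `c`) -/
def Jm (a b : I) (z : V) (p c : Fin 2) : ℂ := T.J a b z (ee c) p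

/-- `s` in the chart `a` -/
def s (a : I) (x : VV) : V :=
  ∑ i, (T.R a i x.1 : ℂ) • T.J i a (T.ta a i x.1) (T.ta a i x.2 - T.ta a i x.1)

/-- the hermitian metric in the chart `a` -/
def h (a : I) (z : V) : Matrix (Fin 2) (Fin 2) ℂ :=
  Matrix.of fun c d => ∑ i, (T.R a i z : ℂ) * ∑ k, T.Jm a i z k c * conj (T.Jm a i z k d)

/-- `b` in the chart `a` -/
def b (a : I) (c : Fin 2) (x : VV) : ℂ := ∑ d, T.h a x.1 c d * star (T.s a x d)

/-- the pair `(z,w)` in the chart `a` is near the diagonal -/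
def Nr (a : I) (x : VV) : Prop := ∀ i, T.R a i x.1 ≠ 0 → x.2 ∈ T.ov a i

variable {T}

lemma mem_of_R {a i : I} {z : V} (hz : z ∈ T.ov a a) (h : T.R a i z ≠ 0) : z ∈ T.ov a i := by
  by_contra h1
  exact h (T.R_supp hz h1).self_of_nhds

lemma ta_inv {a b : I} {z : V} (hz : z ∈ T.ov a b) : T.ta b a (T.ta a b z) = z := by
  rw [T.ta_ta hz (T.ov_sub hz), T.ta_self (T.ov_sub hz)]

lemma ta_mem' {a b : I} {z : V} (hz : z ∈ T.ov a b) : T.ta a b z ∈ T.ov b a :=
  T.ta_mem hz (T.ov_sub hz)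

lemma ta_mem'' {a b : I} {z : V} (hz : z ∈ T.ov a b) : T.ta a b z ∈ T.ov b b :=
  T.ta_mem hz hz

lemma hol' {a b : I} {z : V} (hz : z ∈ T.ov a b) : DifferentiableAt ℂ (T.ta a b) z :=
  (T.hol hz).differentiableAt (by simp)

lemma ev_mem {a b : I} {z : V} (hz : z ∈ T.ov a b) : ∀ᶠ w in 𝓝 z, w ∈ T.ov a b :=
  (T.ov_open a b).mem_nhds hz

lemma J_comp {a b c : I} {z : V} (hb : z ∈ T.ov a b) (hc : z ∈ T.ov a c) (v : V) :
    T.J b c (T.ta a b z) (T.J a b z v) = T.J a c z v := by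
  have h1 : HasFDerivAt (fun w => T.ta b c (T.ta a b w))
      ((T.J b c (T.ta a b z)).comp (T.J a b z)) z :=
    (hol' (T.ta_mem hb hc)).hasFDerivAt.comp z (hol' hb).hasFDerivAt
  have h2 : (fun w => T.ta b c (T.ta a b w)) =ᶠ[𝓝 z] T.ta a c := by
    filter_upwards [ev_mem hb, ev_mem hc] with w h3 h4 using T.ta_ta h3 h4
  have h3 := (h1.congr_of_eventuallyEq h2.symm).unique (hol' hc).hasFDerivAt
  exact congrArg (fun L : V →L[ℂ] V => L v) h3

lemma J_self {a : I} {z : V} (hz : z ∈ T.ov a a) (v : V) : T.J a a z v = v := by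
  have h2 : T.ta a a =ᶠ[𝓝 z] id := by
    filter_upwards [ev_mem hz] with w h3 using T.ta_self h3
  rw [J, h2.fderiv_eq, fderiv_id]
  rfl

lemma J_inv {a b : I} {z : V} (hz : z ∈ T.ov a b) (v : V) :
    T.J b a (T.ta a b z) (T.J a b z v) = v := by
  rw [J_comp hz (T.ov_sub hz), J_self (T.ov_sub hz)]

lemma J_inv' {a b : I} {z : V} (hz : z ∈ T.ov a b) (v : V) :
    T.J a b z (T.J b a (T.ta a b z) v) = v := by
  have := J_inv (ta_mem' hz) v
  rwa [ta_inv hz] at this

lemma J_smooth {a b : I} {z : V} (hz : z ∈ T.ov a b) : ContDiffAt ℂ ∞ (T.J a b) z :=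
  (T.hol hz).fderiv_right (m := ∞) (by simp)

lemma ta_smooth {a b : I} {z : V} (hz : z ∈ T.ov a b) : ContDiffAt ℝ ∞ (T.ta a b) z :=
  (T.hol hz).restrict_scalars ℝ

/-- the map `(z,w) ↦ (ψ z, ψ w)` -/
def tt (T : LAt I) (a b : I) (x : VV) : VV := (T.ta a b x.1, T.ta a b x.2)

lemma diag_mem {a b : I} {z : V} (hz : z ∈ T.ov a b) :
    ∀ᶠ x : VV in 𝓝 (z, z), x.1 ∈ T.ov a b ∧ x.2 ∈ T.ov a b :=
  ((continuousAt_fst (p := ((z, z) : VV))).eventually (ev_mem hz)).and
    ((continuousAt_snd (p := ((z, z) : VV))).eventually (ev_mem hz))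

lemma nr_near {a : I} {z : V} (hz : z ∈ T.ov a a) : ∀ᶠ x : VV in 𝓝 (z, z), T.Nr a x := by
  have h1 : ∀ i : I, ∀ᶠ x : VV in 𝓝 (z, z), T.R a i x.1 ≠ 0 → x.2 ∈ T.ov a i := by
    intro i
    by_cases hi : z ∈ T.ov a i
    · filter_upwards [diag_mem hi] with x hx _ using hx.2
    · filter_upwards [(continuousAt_fst (p := ((z, z) : VV))).eventually (T.R_supp hz hi)] with
        x hx h
      exact absurd hx h
  exact Filter.eventually_all.2 h1

/-! ### the term of `s` -/

lemma s_sh {a : I} {z : V} (hz : z ∈ T.ov a a) : SH (T.s a) (z, z) := by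
  refine SH.sum fun i _ => ?_
  by_cases hi : z ∈ T.ov a i
  · have hR : SH (fun y : VV => (T.R a i y.1 : ℂ)) (z, z) := by
      refine SH.of_fst (f := fun z => (T.R a i z : ℂ)) ?_
      filter_upwards [ev_mem hz] with w hw
      exact Complex.ofRealCLM.contDiff.contDiffAt.comp w (T.R_smooth hw)
    refine hR.smul' ?_
    have hJ : SH (fun y : VV => T.J i a (T.ta a i y.1)) (z, z) := by
      refine SH.of_fst (f := fun z => T.J i a (T.ta a i z)) ?_
      filter_upwards [ev_mem hi] with w hw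
      exact ((J_smooth (ta_mem' hw)).restrict_scalars ℝ).comp w (ta_smooth hw)
    have h1 : SH (fun y : VV => T.ta a i y.2) (z, z) := by
      refine SH.of_snd (f := T.ta a i) ?_
      filter_upwards [ev_mem hi] with w hw using T.hol hw
    have h2 : SH (fun y : VV => T.ta a i y.1) (z, z) := by
      refine SH.of_fst (f := T.ta a i) ?_
      filter_upwards [ev_mem hi] with w hw using ta_smooth hw
    exact SH.bil (ContinuousLinearMap.id ℂ (V →L[ℂ] V)) hJ (h1.sub h2)
  · have h1 : ∀ᶠ y : VV in 𝓝 (z, z), T.R a i y.1 = 0 :=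
      (continuousAt_fst (p := ((z, z) : VV))).eventually (T.R_supp hz hi)
    refine (SH.const (0 : V) _).congr ?_
    filter_upwards [h1] with y hy
    simp [hy]

lemma s_diag (a : I) (z : V) : T.s a (z, z) = 0 := by
  simp [s]

lemma s_deriv {a : I} {z : V} (hz : z ∈ T.ov a a) (v : V) :
    fderiv ℝ (T.s a) (z, z) (0, v) = v := by
  have h1 : HasFDerivAt (fun w : V => T.s a (z, w))
      ((fderiv ℝ (T.s a) (z, z)).comp (ContinuousLinearMap.inr ℝ V V)) z :=
    HasFDerivAt.comp (f := fun w : V => ((z, w) : VV)) z (s_sh hz).differentiableAt.hasFDerivAt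
      (hasFDerivAt_prodMk_right z z)
  have h2 : HasFDerivAt (fun w : V => T.s a (z, w)) (ContinuousLinearMap.id ℝ V) z := by
    have h3 : ∀ i : I, HasFDerivAt (fun w : V => (T.R a i z : ℂ) • T.J i a (T.ta a i z)
        (T.ta a i w - T.ta a i z)) ((T.R a i z) • (ContinuousLinearMap.id ℝ V)) z := by
      intro i
      by_cases hi : z ∈ T.ov a i
      · have h6 : HasFDerivAt (fun w : V => T.ta a i w - T.ta a i z) (T.J a i z) z :=
          (hol' hi).hasFDerivAt.sub_const _
        have h7 : HasFDerivAt (fun w : V => T.J i a (T.ta a i z) (T.ta a i w - T.ta a i z))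
            ((T.J i a (T.ta a i z)).comp (T.J a i z)) z :=
          (T.J i a (T.ta a i z)).hasFDerivAt.comp z h6
        have h4 : HasFDerivAt (fun w : V => (T.R a i z : ℂ) • T.J i a (T.ta a i z)
            (T.ta a i w - T.ta a i z)) ((T.R a i z : ℂ) • (T.J i a (T.ta a i z)).comp
              (T.J a i z)) z := h7.fun_const_smul _
        have h5 := h4.restrictScalars ℝ
        have h8 : ((T.R a i z : ℂ) • (T.J i a (T.ta a i z)).comp (T.J a i z)).restrictScalars ℝ =
            (T.R a i z) • (ContinuousLinearMap.id ℝ V) := by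
          refine ContinuousLinearMap.ext fun v => ?_
          change (T.R a i z : ℂ) • T.J i a (T.ta a i z) (T.J a i z v) = (T.R a i z) • v
          rw [J_inv hi, Complex.coe_smul]
        rw [h8] at h5
        exact h5
      · have h0 : T.R a i z = 0 := (T.R_supp hz hi).self_of_nhds
        have h9 : (T.R a i z) • (ContinuousLinearMap.id ℝ V) = 0 := by
          refine ContinuousLinearMap.ext fun v => ?_
          change T.R a i z • v = 0
          rw [h0, zero_smul]
        rw [h9]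
        simp only [h0, Complex.ofReal_zero, zero_smul]
        exact hasFDerivAt_const _ _
    have h4 := HasFDerivAt.fun_sum (u := Finset.univ) (fun i _ => h3 i)
    rw [← Finset.sum_smul, T.R_sum hz, one_smul] at h4
    exact h4
  have h3 := h1.unique h2
  exact congrArg (fun L : V →L[ℝ] V => L v) h3

/-- the transformation rule of `s` -/
lemma s_trans {a b : I} {x : VV} (h1 : x.1 ∈ T.ov a b) (h2 : x.2 ∈ T.ov a b) (hN : T.Nr a x) :
    T.s b (T.tt a b x) = T.J a b x.1 (T.s a x) := by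
  simp only [s, tt, map_sum, map_smul]
  refine Finset.sum_congr rfl fun i _ => ?_
  rw [T.R_trans i h1]
  by_cases h0 : T.R a i x.1 = 0
  · simp [h0]
  have hi1 : x.1 ∈ T.ov a i := mem_of_R (T.ov_sub h1) h0
  have hi2 : x.2 ∈ T.ov a i := hN i h0
  rw [T.ta_ta h1 hi1, T.ta_ta h2 hi2]
  congr 1
  have h3 := J_comp (ta_mem' hi1) (T.ta_mem hi1 h1) (T.ta a i x.2 - T.ta a i x.1)
  rw [ta_inv hi1] at h3
  exact h3.symm

lemma s_trans_near {a b : I} {z : V} (hz : z ∈ T.ov a b) :
    ∀ᶠ x : VV in 𝓝 (z, z), T.s b (T.tt a b x) = T.J a b x.1 (T.s a x) := by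
  filter_upwards [diag_mem hz, nr_near (T.ov_sub hz)] with x h1 h2 using s_trans h1.1 h1.2 h2

lemma nr_trans {a b : I} {x : VV} (h1 : x.1 ∈ T.ov a b) (h2 : x.2 ∈ T.ov a b) (hN : T.Nr a x) :
    T.Nr b (T.tt a b x) := by
  intro i hi
  have h3 : T.R b i (T.ta a b x.1) ≠ 0 := hi
  rw [T.R_trans i h1] at h3
  exact T.ta_mem h2 (hN i h3)

/-! ### the Jacobian matrices -/

lemma J_apply (a b : I) (z v : V) (p : Fin 2) : T.J a b z v p = ∑ c, T.Jm a b z p c * v c := by
  conv_lhs => rw [eq_ee v]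
  simp only [map_add, map_smul, Pi.add_apply, Pi.smul_apply, smul_eq_mul, Fin.sum_univ_two, Jm]
  ring

lemma Jm_comp {a b c : I} {z : V} (hb : z ∈ T.ov a b) (hc : z ∈ T.ov a c) (p d : Fin 2) :
    T.Jm a c z p d = ∑ q, T.Jm b c (T.ta a b z) p q * T.Jm a b z q d := by
  rw [Jm, ← J_comp hb hc, J_apply]
  rfl

/-! ### the metric -/

lemma Jm_smooth {a b : I} {z : V} (hz : z ∈ T.ov a b) (p c : Fin 2) :
    ContDiffAt ℝ ∞ (fun z => T.Jm a b z p c) z := by
  have h1 : ContDiffAt ℝ ∞ (T.J a b) z := (J_smooth hz).restrict_scalars ℝ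
  have h2 : ContDiffAt ℝ ∞ (fun z => T.J a b z (ee c)) z :=
    ((ContinuousLinearMap.apply ℂ V (ee c)).restrictScalars ℝ).contDiff.contDiffAt.comp z h1
  exact ((ContinuousLinearMap.proj (R := ℝ) (φ := fun _ : Fin 2 => ℂ) p).contDiff.contDiffAt).comp
    z h2

lemma h_smooth {a : I} {z : V} (hz : z ∈ T.ov a a) (c d : Fin 2) :
    ContDiffAt ℝ ∞ (fun z => T.h a z c d) z := by
  have h1 : ∀ i : I, ContDiffAt ℝ ∞ (fun z => (T.R a i z : ℂ) *
      ∑ k, T.Jm a i z k c * conj (T.Jm a i z k d)) z := by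
    intro i
    by_cases hi : z ∈ T.ov a i
    · have hR : ContDiffAt ℝ ∞ (fun z => (T.R a i z : ℂ)) z :=
        Complex.ofRealCLM.contDiff.contDiffAt.comp z (T.R_smooth hz)
      refine hR.mul (ContDiffAt.sum fun k _ => ?_)
      refine (Jm_smooth hi k c).mul ?_
      exact Complex.conjCLE.contDiff.contDiffAt.comp z (Jm_smooth hi k d)
    · refine (contDiffAt_const (c := (0 : ℂ))).congr_of_eventuallyEq ?_
      filter_upwards [T.R_supp hz hi] with w hw
      simp [hw]
  exact ContDiffAt.sum fun i _ => h1 i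

lemma h_herm (a : I) (z : V) : (T.h a z).IsHermitian := by
  ext c d
  simp only [h, Matrix.conjTranspose_apply, Matrix.of_apply, star_sum, star_mul', Complex.star_def,
    Complex.conj_ofReal, Complex.conj_conj]
  refine Finset.sum_congr rfl fun i _ => ?_
  congr 1
  refine Finset.sum_congr rfl fun k _ => ?_
  rw [mul_comm]

/-- `∑ h_cd v_c conj(v_d) = ∑_i ρ_i |Dψ_i v|²` -/
lemma h_apply (a : I) (z v : V) : ∑ c, ∑ d, T.h a z c d * (v c * conj (v d)) =
    ((∑ i, T.R a i z * ∑ k, ‖T.J a i z v k‖ ^ 2 : ℝ) : ℂ) := by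
  push_cast
  have h1 : ∀ i k, ((‖T.J a i z v k‖ : ℂ)) ^ 2 =
      ∑ c, ∑ d, (T.Jm a i z k c * conj (T.Jm a i z k d)) * (v c * conj (v d)) := by
    intro i k
    rw [← Complex.mul_conj', J_apply]
    simp only [Fin.sum_univ_two, map_add, map_mul]
    ring
  simp only [h1, h, Matrix.of_apply, Fin.sum_univ_two, mul_add]
  simp only [← Finset.sum_add_distrib, Finset.sum_mul]
  refine Finset.sum_congr rfl fun i _ => ?_
  ring

lemma exists_R {a : I} {z : V} (hz : z ∈ T.ov a a) : ∃ i, 0 < T.R a i z ∧ z ∈ T.ov a i := by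
  by_contra hcon
  push Not at hcon
  have h1 : ∀ i, T.R a i z = 0 := by
    intro i
    by_contra h0
    have h2 : 0 < T.R a i z := lt_of_le_of_ne (T.R_nonneg hz) (Ne.symm h0)
    exact hcon i h2 (mem_of_R hz h0)
  have h2 := T.R_sum hz
  simp [h1] at h2

lemma h_posv {a : I} {z : V} (hz : z ∈ T.ov a a) {v : V} (hv : v ≠ 0) :
    0 < ∑ i, T.R a i z * ∑ k, ‖T.J a i z v k‖ ^ 2 := by
  obtain ⟨i, hi, hm⟩ := exists_R hz
  have h1 : ∀ j, 0 ≤ T.R a j z * ∑ k, ‖T.J a j z v k‖ ^ 2 := fun j =>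
    mul_nonneg (T.R_nonneg hz) (Finset.sum_nonneg fun k _ => by positivity)
  refine lt_of_lt_of_le ?_ (Finset.single_le_sum (fun j _ => h1 j) (Finset.mem_univ i))
  refine mul_pos hi ?_
  have h2 : T.J a i z v ≠ 0 := by
    intro h0
    apply hv
    rw [← J_inv hm v, h0, map_zero]
  obtain ⟨k, hk⟩ := Function.ne_iff.1 h2
  refine Finset.sum_pos' (fun k _ => by positivity) ⟨k, Finset.mem_univ k, ?_⟩
  have : T.J a i z v k ≠ 0 := hk
  positivity

lemma h_pos {a : I} {z : V} (hz : z ∈ T.ov a a) : 0 < (T.h a z 0 0).re := by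
  have h1 := h_apply (T := T) a z (ee 0)
  have h2 : (ee 0 : V) ≠ 0 := by
    intro h0
    have := congrFun h0 0
    simp [ee] at this
  have h3 := h_posv hz h2
  simp only [ee, Fin.sum_univ_two, Pi.single_eq_same, map_one, mul_one, ne_eq, one_ne_zero,
    not_false_eq_true, Pi.single_eq_of_ne, map_zero, mul_zero, add_zero] at h1
  rw [h1, Complex.ofReal_re]
  simpa [ee, Fin.sum_univ_two] using h3

lemma det_pos {a : I} {z : V} (hz : z ∈ T.ov a a) : 0 < (T.h a z).det.re := by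
  -- evaluate the form at `v = (- h_10, h_00)` up to conjugation
  have hh := h_herm (T := T) a z
  have h00 : conj (T.h a z 0 0) = T.h a z 0 0 := by
    have := congrFun (congrFun hh 0) 0
    simpa [Matrix.conjTranspose_apply] using this
  have h11 : conj (T.h a z 1 1) = T.h a z 1 1 := by
    have := congrFun (congrFun hh 1) 1
    simpa [Matrix.conjTranspose_apply] using this
  have h01 : conj (T.h a z 0 1) = T.h a z 1 0 := by
    have := congrFun (congrFun hh 1) 0
    simpa [Matrix.conjTranspose_apply] using this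
  have h10 : conj (T.h a z 1 0) = T.h a z 0 1 := by
    have := congrFun (congrFun hh 0) 1
    simpa [Matrix.conjTranspose_apply] using this
  have hp := h_pos hz
  set v : V := ![- T.h a z 1 0, T.h a z 0 0] with hv
  have hv0 : v ≠ 0 := by
    intro h0
    have := congrFun h0 1
    simp only [hv, Matrix.cons_val_one, Matrix.cons_val_fin_one, Pi.zero_apply] at this
    rw [this] at hp
    simp at hp
  have h1 := h_apply (T := T) a z v
  have h2 := h_posv hz hv0
  have h3 : ∑ c, ∑ d, T.h a z c d * (v c * conj (v d)) = T.h a z 0 0 * (T.h a z).det := by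
    simp only [Fin.sum_univ_two, hv, Matrix.cons_val_zero, Matrix.cons_val_one,
      Matrix.cons_val_fin_one, map_neg, h00, h10, Matrix.det_fin_two]
    ring
  have h4 : (T.h a z).det = ((T.h a z).det.re : ℂ) := by
    have : conj (T.h a z).det = (T.h a z).det := by
      rw [Matrix.det_fin_two]
      simp only [map_sub, map_mul, h00, h11, h01, h10]
      ring
    exact (Complex.conj_eq_iff_re.1 this).symm
  have h5 : T.h a z 0 0 = ((T.h a z 0 0).re : ℂ) := (Complex.conj_eq_iff_re.1 h00).symm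
  rw [h3, h4, h5, ← Complex.ofReal_mul, Complex.ofReal_inj] at h1
  rw [← h1] at h2
  exact (mul_pos_iff_of_pos_left hp).1 h2

/-- the transformation rule of `h` -/
lemma h_trans {a b : I} {z : V} (hz : z ∈ T.ov a b) (c d : Fin 2) :
    T.h a z c d = ∑ p, ∑ q, T.h b (T.ta a b z) p q * (T.Jm a b z p c * conj (T.Jm a b z q d)) := by
  simp only [h, Matrix.of_apply, Fin.sum_univ_two (f := fun p : Fin 2 => ∑ q : Fin 2, _)]
  simp only [Fin.sum_univ_two (f := fun q : Fin 2 => (∑ i, _) * _)]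
  simp only [Finset.sum_mul, ← Finset.sum_add_distrib]
  refine Finset.sum_congr rfl fun i _ => ?_
  rw [T.R_trans i hz]
  by_cases h0 : T.R a i z = 0
  · simp [h0]
  have hi : z ∈ T.ov a i := mem_of_R (T.ov_sub hz) h0
  have h1 := fun k d => Jm_comp hz hi k d
  simp only [Fin.sum_univ_two] at h1 ⊢
  rw [h1 0 c, h1 0 d, h1 1 c, h1 1 d]
  simp only [map_add, map_mul]
  ring

/-- the transformation rule of `b` -/
lemma b_trans {a b : I} {x : VV} (h1 : x.1 ∈ T.ov a b) (h2 : x.2 ∈ T.ov a b) (hN : T.Nr a x)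
    (c : Fin 2) : T.b a c x = ∑ p, T.b b p (T.tt a b x) * T.Jm a b x.1 p c := by
  have h3 := s_trans h1 h2 hN
  simp only [LAt.b, h3, J_apply, h_trans h1]
  simp only [tt, Fin.sum_univ_two, Complex.star_def, map_add, map_mul]
  ring

lemma b_smooth {a : I} {x : VV} (hx : x.1 ∈ T.ov a a) (hs : ContDiffAt ℝ ∞ (T.s a) x)
    (c : Fin 2) : ContDiffAt ℝ ∞ (T.b a c) x := by
  refine ContDiffAt.sum fun d _ => ?_
  have e1 : ContDiffAt ℝ ∞ (fun y : VV => T.h a y.1 c d) x :=
    (h_smooth hx c d).comp x contDiffAt_fst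
  have e2 : ContDiffAt ℝ ∞ (fun y : VV => T.s a y d) x :=
    ((ContinuousLinearMap.proj (R := ℝ) (φ := fun _ : Fin 2 => ℂ) d).contDiff.contDiffAt).comp x hs
  exact e1.mul (Complex.conjCLE.contDiff.contDiffAt.comp x e2)

end LAt

/-! ### bundles -/

/-- A holomorphic bundle with transition functions in (the units of) `A` -/
structure LBun {I : Type} [Fintype I] (T : LAt I) (A : Type) [NormedRing A] [NormedAlgebra ℂ A]
    where
  /-- transition functions: `u_b (ψ z) = E a b z u_a z` -/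
  E : I → I → V → A
  hol : ∀ {a b z}, z ∈ T.ov a b → ContDiffAt ℂ ∞ (E a b) z
  coc : ∀ {a b c z}, z ∈ T.ov a b → z ∈ T.ov a c → E b c (T.ta a b z) * E a b z = E a c z
  self : ∀ {a z}, z ∈ T.ov a a → E a a z = 1

namespace LBun

variable {I : Type} [Fintype I] {T : LAt I} {A : Type} [NormedRing A] [NormedAlgebra ℂ A]
  (B : LBun T A)

/-- `τ` in the chart `a` -/
def t (a : I) (x : VV) : A :=
  ∑ i, (T.R a i x.1 : ℂ) • (B.E i a (T.ta a i x.1) * B.E a i x.2)

variable {B}

lemma E_inv {a b : I} {z : V} (hz : z ∈ T.ov a b) : B.E b a (T.ta a b z) * B.E a b z = 1 := by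
  rw [B.coc hz (T.ov_sub hz), B.self (T.ov_sub hz)]

lemma E_inv' {a b : I} {z : V} (hz : z ∈ T.ov a b) : B.E a b z * B.E b a (T.ta a b z) = 1 := by
  have := E_inv (B := B) (LAt.ta_mem' hz)
  rwa [LAt.ta_inv hz] at this

lemma t_sh {a : I} {z : V} (hz : z ∈ T.ov a a) : SH (B.t a) (z, z) := by
  refine SH.sum fun i _ => ?_
  by_cases hi : z ∈ T.ov a i
  · have hR : SH (fun y : VV => (T.R a i y.1 : ℂ)) (z, z) := by
      refine SH.of_fst (f := fun z => (T.R a i z : ℂ)) ?_
      filter_upwards [LAt.ev_mem hz] with w hw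
      exact Complex.ofRealCLM.contDiff.contDiffAt.comp w (T.R_smooth hw)
    refine hR.smul' (SH.mul ?_ ?_)
    · refine SH.of_fst (f := fun z => B.E i a (T.ta a i z)) ?_
      filter_upwards [LAt.ev_mem hi] with w hw
      exact ((B.hol (LAt.ta_mem' hw)).restrict_scalars ℝ).comp w (LAt.ta_smooth hw)
    · refine SH.of_snd (f := B.E a i) ?_
      filter_upwards [LAt.ev_mem hi] with w hw using B.hol hw
  · have h1 : ∀ᶠ y : VV in 𝓝 (z, z), T.R a i y.1 = 0 :=
      (continuousAt_fst (p := ((z, z) : VV))).eventually (T.R_supp hz hi)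
    refine (SH.const (0 : A) _).congr ?_
    filter_upwards [h1] with y hy
    simp [hy]

lemma t_diag {a : I} {z : V} (hz : z ∈ T.ov a a) : B.t a (z, z) = 1 := by
  have h1 : ∀ i, (T.R a i z : ℂ) • (B.E i a (T.ta a i z) * B.E a i z) =
      (T.R a i z : ℂ) • (1 : A) := by
    intro i
    by_cases hi : z ∈ T.ov a i
    · rw [E_inv hi]
    · simp [(T.R_supp hz hi).self_of_nhds]
  simp only [t, h1, ← Finset.sum_smul, ← Complex.ofReal_sum, T.R_sum hz, Complex.ofReal_one,
    one_smul]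

/-- the transformation rule of `τ` -/
lemma t_trans {a b : I} {x : VV} (h1 : x.1 ∈ T.ov a b) (h2 : x.2 ∈ T.ov a b) (hN : T.Nr a x) :
    B.t b (T.tt a b x) * B.E a b x.2 = B.E a b x.1 * B.t a x := by
  simp only [t, LAt.tt, Finset.sum_mul, Finset.mul_sum, smul_mul_assoc, mul_smul_comm]
  refine Finset.sum_congr rfl fun i _ => ?_
  rw [T.R_trans i h1]
  by_cases h0 : T.R a i x.1 = 0
  · simp [h0]
  have hi1 : x.1 ∈ T.ov a i := LAt.mem_of_R (T.ov_sub h1) h0
  have hi2 : x.2 ∈ T.ov a i := hN i h0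
  congr 1
  rw [T.ta_ta h1 hi1, mul_assoc, B.coc h2 hi2]
  have h3 := B.coc (LAt.ta_mem' hi1) (T.ta_mem hi1 h1)
  rw [LAt.ta_inv hi1] at h3
  rw [← h3]
  rw [mul_assoc]

/-- **the hypotheses of `H734/Coord`** -/
theorem inp (B : LBun T A) (a : I) : Inp (T.ov a a) (T.s a) (B.t a) where
  isOpen := T.ov_open a a
  sh_s := fun _ hz => LAt.s_sh hz
  s0 := fun z _ => LAt.s_diag a z
  s1 := fun _ hz => LAt.s_deriv hz
  sh_t := fun _ hz => t_sh hz
  t0 := fun _ hz => t_diag hz

end LBun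

end Vale.Agent.P267.H955
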