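import Vale.Agent.P267.H955.Jets
import Vale.Agent.P267.H221.Sys

/-!
# P267, RRK-GLOB part A: `FinAt` and `Bun` as `LAt` and `LBun`
-/

set_option linter.unusedSectionVars false

open scoped Manifold ContDiff Topology ComplexConjugate Matrix
open Set Filter Vale.Agent.P267.H315 Vale.Agent.P267.H734 Vale.Agent.P267.FL Vale.Agent.P267.RR

noncomputable section

namespace Vale.Agent.P267.H955

variable {X : Type*} [TopologicalSpace X] [ChartedSpace C2 X] [IsManifold 𝓘(ℂ, C2) ω X]

lemma rho_smooth' (A : FinAt X) (a i : Fin A.N) :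
    ContDiffOn ℝ ∞ (fun z => A.rho i ((A.e a).symm z)) (A.e a).target := by
  have h := A.rho_smooth i (A.e a) (A.he a)
  rw [FL.LB.loc0_zero] at h
  have h2 := Complex.reCLM.contDiff.comp_contDiffOn h
  exact h2

/-- the finite atlas of `H221/Sys` in its charts -/
def lat (A : FinAt X) : LAt (Fin A.N) where
  ov := A.ov
  ta := A.tau
  R a i z := A.rho i ((A.e a).symm z)
  ov_open := A.isOpen_ov
  ov_sub := fun {a b z} hz => FinAt.mem_ov_self hz.1
  ta_mem := fun {a b c z} hb hc => FinAt.tau_mem_ov hb hc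
  ta_ta := fun {a b c z} hb hc => FinAt.tau_comp c hb
  ta_self := fun {a z} hz => FinAt.tau_self hz.1
  hol := fun {a b z} hz => (FinAt.tau_analyticAt hz).contDiffAt
  R_smooth := fun {a i z} hz =>
    (rho_smooth' A a i).contDiffAt ((A.e a).open_target.mem_nhds hz.1.1)
  R_nonneg := fun {a i z} _ => A.rho_nonneg i _
  R_sum := fun {a z} _ => A.rho_sum _
  R_trans := fun {a b z} i hz => by rw [FinAt.symm_tau hz]
  R_supp := fun {a i z} hz hzi => by
    have h1 : (A.e a).symm z ∉ tsupport (A.rho i) := fun h2 => hzi ⟨hz.1, A.rho_supp i h2⟩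
    have h3 : ∀ᶠ x in 𝓝 ((A.e a).symm z), x ∉ tsupport (A.rho i) :=
      (isClosed_tsupport (A.rho i)).isOpen_compl.mem_nhds h1
    have h4 : ContinuousAt (A.e a).symm z := (A.e a).continuousAt_symm hz.1.1
    filter_upwards [h4.eventually h3] with w hw
    exact image_eq_zero_of_notMem_tsupport hw

lemma ov_self_eq (A : FinAt X) (a : Fin A.N) : A.ov a a = A.O a := by
  ext z
  exact ⟨fun h => h.1, fun h => FinAt.mem_ov_self h⟩

/-- the two Jacobian matrices agree -/
lemma Jm_eq (A : FinAt X) {a b : Fin A.N} {z : V} (hz : z ∈ A.ov a b) (p c : Fin 2) :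
    (lat A).Jm a b z p c = A.J a b z p c := by
  have h := jacM_apply (A.he a) (A.he b) (FinAt.symm_mem_source hz.1) (FinAt.symm_mem_source' hz)
    p c
  rw [(A.e a).right_inv hz.1.1] at h
  exact h.symm

/-! ### bundles -/

lemma mL_sum {r : ℕ} (M : Matrix (Fin r) (Fin r) ℂ) :
    mL M = ∑ i, ∑ j, M i j • mL (Matrix.single i j (1 : ℂ)) := by
  refine ContinuousLinearMap.ext fun v => ?_
  simp only [_root_.sum_apply, _root_.smul_apply, mL_apply]
  conv_lhs => rw [Matrix.matrix_eq_sum_single M]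
  simp only [Matrix.sum_mulVec]
  refine Finset.sum_congr rfl fun i _ => Finset.sum_congr rfl fun j _ => ?_
  rw [← Matrix.smul_mulVec, Matrix.smul_single, smul_eq_mul, mul_one]

lemma mL_mul {r : ℕ} (M N : Matrix (Fin r) (Fin r) ℂ) : mL (M * N) = mL M * mL N := by
  refine ContinuousLinearMap.ext fun v => ?_
  change (M * N) *ᵥ v = M *ᵥ (N *ᵥ v)
  rw [Matrix.mulVec_mulVec]

lemma mL_one {r : ℕ} : mL (1 : Matrix (Fin r) (Fin r) ℂ) = 1 := by
  refine ContinuousLinearMap.ext fun v => ?_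
  change (1 : Matrix (Fin r) (Fin r) ℂ) *ᵥ v = v
  rw [Matrix.one_mulVec]

/-- the algebra of endomorphisms of the fibre -/
abbrev EndF (r : ℕ) : Type := (Fin r → ℂ) →L[ℂ] (Fin r → ℂ)

/-- the bundle of `H221/Sys` as a `LBun` -/
def lbun {A : FinAt X} {r : ℕ} (B : Bun A r) : LBun (lat A) (EndF r) where
  E a b z := mL (B.E a b z)
  hol := fun {a b z} hz => by
    have h1 : (fun z => mL (B.E a b z)) =
        fun z => ∑ i, ∑ j, B.E a b z i j • mL (Matrix.single i j (1 : ℂ)) := by
      funext z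
      exact mL_sum _
    rw [h1]
    refine ContDiffAt.sum fun i _ => ContDiffAt.sum fun j _ => ?_
    exact (B.hol a b z hz i j).contDiffAt.smul contDiffAt_const
  coc := fun {a b c z} hb hc => by
    rw [← mL_mul]
    congr 1
    exact B.comp a b c z hb hc
  self := fun {a z} hz => by
    rw [B.self a z hz.1, mL_one]

/-- a property near the diagonal, in the manifold -/
lemma ev_X (A : FinAt X) {a : Fin A.N} {x0 : X} (hx : x0 ∈ A.U a) {P : VV → Prop}
    (h : ∀ᶠ x : VV in 𝓝 (A.e a x0, A.e a x0), P x) :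
    ∀ᶠ p : X × X in 𝓝 (x0, x0), P (A.e a p.1, A.e a p.2) := by
  have h1 : ContinuousAt (A.e a) x0 := (A.e a).continuousAt (A.U_sub a hx)
  have h2 : ContinuousAt (fun p : X × X => (A.e a p.1, A.e a p.2)) (x0, x0) :=
    (ContinuousAt.comp (f := Prod.fst) h1 continuousAt_fst).prodMk
      (ContinuousAt.comp (f := Prod.snd) h1 continuousAt_snd)
  exact h2.eventually h

lemma ev_U (A : FinAt X) {a : Fin A.N} {x0 : X} (hx : x0 ∈ A.U a) :
    ∀ᶠ p : X × X in 𝓝 (x0, x0), p.1 ∈ A.U a ∧ p.2 ∈ A.U a :=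
  ((continuousAt_fst (p := (x0, x0))).eventually ((A.isOpen_U a).mem_nhds hx)).and
    ((continuousAt_snd (p := (x0, x0))).eventually ((A.isOpen_U a).mem_nhds hx))

end Vale.Agent.P267.H955
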