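import Vale.Agent.P267.H955.Glue
import Vale.Agent.P267.H734.Comp
import Vale.Agent.P267.H315.Equiv

/-!
# P267, RRK-JET: the jets of the glued data on the diagonal

`jet_ep`, `jet_aa`: for every `h : Inp Ω s τ` the `z̄`-derivatives of the jets of `τ`, `s` on the
diagonal are the jets of `ε_k`, `a_k` on the zero section. `LBun.dbv_t1`, `LAt.dbv_s2`: their values
for the glued data.
-/

set_option linter.unusedSectionVars false

open scoped ContDiff Topology ComplexConjugate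
open Set Filter Vale.Agent.P267.H315 Vale.Agent.P267.H734

noncomputable section

namespace Vale.Agent.P267.H955

variable {W : Type} [NormedAddCommGroup W] [NormedSpace ℂ W]

/-- the `z̄`-derivative of the restriction to the diagonal -/
lemma dbv_diag' {F : VV → W} {z : V} (hF : SH F (z, z)) (v : V) :
    dbv v (fun y => F (y, y)) z = dbv (v, 0) F (z, z) := by
  have h1 : HasFDerivAt (fun y : V => F (y, y)) ((fderiv ℝ F (z, z)).comp
      ((ContinuousLinearMap.id ℝ V).prod (ContinuousLinearMap.id ℝ V))) z :=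
    HasFDerivAt.comp (f := fun y : V => (y, y)) z hF.differentiableAt.hasFDerivAt
      ((hasFDerivAt_id z).prodMk (hasFDerivAt_id z))
  have h2 : ∀ v : V, fderiv ℝ (fun y : V => F (y, y)) z v =
      fderiv ℝ F (z, z) (v, 0) + fderiv ℝ F (z, z) (0, v) := by
    intro v
    rw [h1.fderiv]
    have h5 : ((v, v) : VV) = (v, 0) + (0, v) := by simp
    change fderiv ℝ F (z, z) (v, v) = _
    rw [h5, map_add]
  have h3 : (Complex.I • ((v, 0) : VV)) = (Complex.I • v, 0) := by simp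
  unfold dbv
  have h4 : Complex.I • Complex.I • fderiv ℝ F (z, z) (0, v) = - fderiv ℝ F (z, z) (0, v) := by
    rw [smul_smul, Complex.I_mul_I, neg_one_smul]
  rw [h2, h2, h3, hF.hol v, smul_add Complex.I, h4]
  congr 1
  abel

section inp

variable {A : Type} [NormedRing A] [NormedAlgebra ℂ A] [CompleteSpace A]
  {Ω : Set V} {s : VV → V} {τ : VV → A}

/-- the jet of `ε_k` -/
theorem jet_ep (h : Inp Ω s τ) (k : Fin 2) {z : V} (hz : z ∈ Ω) (v : V) :
    fderiv ℝ (ep1 Ω s τ k) (z, 0) (0, v) =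
      dbv (ee k) (fun y => fderiv ℝ τ (y, y) (0, v)) z := by
  have hx := h.mem_dU hz
  have ht := h.sh_t z hz
  have hs := h.sh_s z hz
  rw [dbv_diag' (F := fun y => fderiv ℝ τ y (0, v)) (ht.fderiv_apply (0, v)),
    ← fderiv_dbv_eq ht.contDiffAt]
  have h1 : (fun y => dbv (ee k, 0) τ y) =ᶠ[𝓝 (z, z)] fun y => ep1 Ω s τ k (Xi s y) * τ y := by
    filter_upwards [h.isOpen_dU.mem_nhds hx] with y hy
    rw [Inp.dbt (h.dU_sub hy) k, h.ep1_Xi k hy]
  rw [h1.fderiv_eq]
  have h2 : SH (ep1 Ω s τ k) (Xi s (z, z)) := h.sh_ep1 k (h.Xi_mem hx)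
  have h3 : DifferentiableAt ℝ (fun y => ep1 Ω s τ k (Xi s y)) (z, z) :=
    (h.sh_Xi hx h2).differentiableAt
  rw [fderiv_fun_mul' h3 ht.differentiableAt]
  simp only [_root_.add_apply, _root_.smul_apply, smul_eq_mul,
    MulOpposite.smul_eq_mul_unop, MulOpposite.unop_op]
  rw [fderiv_comp_Xi hs.differentiableAt h2.differentiableAt, h.s1 z hz, h.Xi_diag hz,
    h.ep1_zero k hz, h.t0 z hz, zero_mul, zero_add, mul_one]

/-- the jet of `a_k` -/
theorem jet_aa (h : Inp Ω s τ) (k : Fin 2) {z : V} (hz : z ∈ Ω) (u v : V) :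
    fderiv ℝ (fun y => fderiv ℝ (aa Ω s τ k) y (0, u)) (z, 0) (0, v) =
      dbv (ee k) (fun y => fderiv ℝ (fun x => fderiv ℝ s x (0, u)) (y, y) (0, v)) z := by
  have hx := h.mem_dU hz
  have hs := h.sh_s z hz
  have hsu : SH (fun x => fderiv ℝ s x (0, u)) (z, z) := hs.fderiv_apply (0, u)
  rw [dbv_diag' (F := fun y => fderiv ℝ (fun x => fderiv ℝ s x (0, u)) y (0, v))
    (hsu.fderiv_apply (0, v)), ← fderiv_dbv_eq hsu.contDiffAt]
  have haa : ∀ y ∈ dU Ω s τ, SH (aa Ω s τ k) (Xi s y) := fun y hy => h.sh_aa k (h.Xi_mem hy)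
  have h1 : (fun y => dbv (ee k, 0) (fun x => fderiv ℝ s x (0, u)) y) =ᶠ[𝓝 (z, z)]
      fun y => (fderiv ℝ s y (0, u) 0) • fderiv ℝ (aa Ω s τ k) (Xi s y) (0, ee 0) +
        (fderiv ℝ s y (0, u) 1) • fderiv ℝ (aa Ω s τ k) (Xi s y) (0, ee 1) := by
    filter_upwards [h.isOpen_dU.mem_nhds hx] with y hy
    have hsy := Inp.dO_sh_s (h.dU_sub hy)
    rw [← fderiv_dbv_eq hsy.contDiffAt]
    have h2 : (fun y => dbv (ee k, 0) s y) =ᶠ[𝓝 y] fun y => aa Ω s τ k (Xi s y) := by
      filter_upwards [h.isOpen_dU.mem_nhds hy] with x hx using (h.aa_Xi k hx).symm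
    rw [h2.fderiv_eq, fderiv_comp_Xi hsy.differentiableAt (haa y hy).differentiableAt,
      (haa y hy).hol.two]
  rw [h1.fderiv_eq]
  have hX : Xi s (z, z) = (z, 0) := h.Xi_diag hz
  have ha : SH (aa Ω s τ k) (z, 0) := by
    have := haa _ hx
    rwa [hX] at this
  have hac : ∀ c : Fin 2, SH (fun y => fderiv ℝ (aa Ω s τ k) y (0, ee c)) (Xi s (z, z)) :=
    fun c => by rw [hX]; exact ha.fderiv_apply (0, ee c)
  have hz0 : ∀ c : Fin 2, fderiv ℝ (aa Ω s τ k) (z, 0) (0, ee c) = 0 := by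
    intro c
    funext i
    exact h.Ja_zero k i c hz
  have dF : ∀ c : Fin 2, DifferentiableAt ℝ
      (fun y => fderiv ℝ (aa Ω s τ k) (Xi s y) (0, ee c)) (z, z) := fun c =>
    (h.sh_Xi hx (F := fun y => fderiv ℝ (aa Ω s τ k) y (0, ee c)) (hac c)).differentiableAt
  have ds : ∀ c : Fin 2, DifferentiableAt ℝ (fun y => fderiv ℝ s y (0, u) c) (z, z) := fun c =>
    (hsu.pi c).differentiableAt
  have key : ∀ c : Fin 2, fderiv ℝ (fun y => (fderiv ℝ s y (0, u) c) •
      fderiv ℝ (aa Ω s τ k) (Xi s y) (0, ee c)) (z, z) (0, v) =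
      u c • fderiv ℝ (fun y => fderiv ℝ (aa Ω s τ k) y (0, ee c)) (z, 0) (0, v) := by
    intro c
    have e1 : fderiv ℝ (fun y => (fderiv ℝ s y (0, u) c) •
        fderiv ℝ (aa Ω s τ k) (Xi s y) (0, ee c)) (z, z) =
        (fderiv ℝ s (z, z) (0, u) c) •
          fderiv ℝ (fun y => fderiv ℝ (aa Ω s τ k) (Xi s y) (0, ee c)) (z, z) +
        (fderiv ℝ (fun y => fderiv ℝ s y (0, u) c) (z, z)).smulRight
          (fderiv ℝ (aa Ω s τ k) (Xi s (z, z)) (0, ee c)) := fderiv_fun_smul (ds c) (dF c)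
    rw [e1]
    simp only [_root_.add_apply, _root_.smul_apply,
      ContinuousLinearMap.smulRight_apply, hX, hz0, smul_zero, add_zero, h.s1 z hz]
    rw [fderiv_comp_Xi (F := fun y => fderiv ℝ (aa Ω s τ k) y (0, ee c)) hs.differentiableAt
      (hac c).differentiableAt, h.s1 z hz, hX]
  have hsum : fderiv ℝ (fun y => (fderiv ℝ s y (0, u) 0) • fderiv ℝ (aa Ω s τ k) (Xi s y) (0, ee 0)
      + (fderiv ℝ s y (0, u) 1) • fderiv ℝ (aa Ω s τ k) (Xi s y) (0, ee 1)) (z, z) =
      fderiv ℝ (fun y => (fderiv ℝ s y (0, u) 0) •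
        fderiv ℝ (aa Ω s τ k) (Xi s y) (0, ee 0)) (z, z) +
      fderiv ℝ (fun y => (fderiv ℝ s y (0, u) 1) •
        fderiv ℝ (aa Ω s τ k) (Xi s y) (0, ee 1)) (z, z) :=
    fderiv_fun_add ((ds 0).smul (dF 0)) ((ds 1).smul (dF 1))
  rw [hsum, _root_.add_apply, key, key]
  have h3 : (fun y => fderiv ℝ (aa Ω s τ k) y (0, u)) =ᶠ[𝓝 (z, 0)]
      fun y => u 0 • fderiv ℝ (aa Ω s τ k) y (0, ee 0) +
        u 1 • fderiv ℝ (aa Ω s τ k) y (0, ee 1) := by
    filter_upwards [ha] with y hy using hy.2.two u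
  have d2 : ∀ c : Fin 2, DifferentiableAt ℝ (fun y => fderiv ℝ (aa Ω s τ k) y (0, ee c)) (z, 0) :=
    fun c => (ha.fderiv_apply (0, ee c)).differentiableAt
  have h4 : HasFDerivAt (fun y => u 0 • fderiv ℝ (aa Ω s τ k) y (0, ee 0) +
      u 1 • fderiv ℝ (aa Ω s τ k) y (0, ee 1))
      (u 0 • fderiv ℝ (fun y => fderiv ℝ (aa Ω s τ k) y (0, ee 0)) (z, 0) +
        u 1 • fderiv ℝ (fun y => fderiv ℝ (aa Ω s τ k) y (0, ee 1)) (z, 0)) (z, 0) :=
    ((d2 0).hasFDerivAt.fun_const_smul (u 0)).fun_add ((d2 1).hasFDerivAt.fun_const_smul (u 1))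
  rw [h3.fderiv_eq, h4.fderiv]
  rfl

end inp

/-! ### the glued data -/

/-- the derivative in the second variable -/
lemma fderiv_snd {F : VV → W} {z w : V} (hF : DifferentiableAt ℝ F (z, w)) (v : V) :
    fderiv ℝ F (z, w) (0, v) = fderiv ℝ (fun y => F (z, y)) w v := by
  have h1 : HasFDerivAt (fun y : V => F (z, y))
      ((fderiv ℝ F (z, w)).comp (ContinuousLinearMap.inr ℝ V V)) w :=
    HasFDerivAt.comp (f := fun y : V => ((z, y) : VV)) w hF.hasFDerivAt
      (hasFDerivAt_prodMk_right z w)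
  rw [h1.fderiv]
  rfl

namespace LAt

variable {I : Type} [Fintype I] {T : LAt I}

/-- `J⁻¹ ∂_v J` -/
def al (T : LAt I) (a i : I) (z v : V) : V →L[ℂ] V :=
  (T.J i a (T.ta a i z)).comp (fderiv ℂ (T.J a i) z v)

lemma R_zero_of {a i : I} {z : V} (hz : z ∈ T.ov a a) (hi : z ∉ T.ov a i) : T.R a i z = 0 :=
  (T.R_supp hz hi).self_of_nhds

/-- the first derivative of `s` near the diagonal -/
lemma s_fst {a : I} {z : V} (hz : z ∈ T.ov a a) (u : V) : ∀ᶠ w in 𝓝 z,
    fderiv ℝ (T.s a) (z, w) (0, u) =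
      ∑ i, (T.R a i z : ℂ) • T.J i a (T.ta a i z) (T.J a i w u) := by
  have h1 : ∀ᶠ w in 𝓝 z, DifferentiableAt ℝ (T.s a) (z, w) := by
    have h2 : ∀ᶠ x in 𝓝 ((z, z) : VV), SH (T.s a) x := (s_sh hz).eventually
    have h3 : ContinuousAt (fun w : V => ((z, w) : VV)) z := by fun_prop
    filter_upwards [h3.eventually h2] with w hw using hw.differentiableAt
  have h2 : ∀ i : I, ∀ᶠ w in 𝓝 z, z ∈ T.ov a i → w ∈ T.ov a i := by
    intro i
    by_cases hi : z ∈ T.ov a i
    · filter_upwards [ev_mem hi] with w hw _ using hw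
    · exact Eventually.of_forall fun w h => absurd h hi
  filter_upwards [h1, Filter.eventually_all.2 h2] with w h3 h4
  rw [fderiv_snd h3]
  have h5 : ∀ i : I, HasFDerivAt (fun w : V => (T.R a i z : ℂ) • T.J i a (T.ta a i z)
      (T.ta a i w - T.ta a i z)) (((T.R a i z : ℂ) • (T.J i a (T.ta a i z)).comp
        (T.J a i w)).restrictScalars ℝ) w := by
    intro i
    by_cases hi : z ∈ T.ov a i
    · have h6 : HasFDerivAt (fun w : V => T.ta a i w - T.ta a i z) (T.J a i w) w :=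
        (hol' (h4 i hi)).hasFDerivAt.sub_const _
      have h7 : HasFDerivAt (fun w : V => T.J i a (T.ta a i z) (T.ta a i w - T.ta a i z))
          ((T.J i a (T.ta a i z)).comp (T.J a i w)) w :=
        (T.J i a (T.ta a i z)).hasFDerivAt.comp w h6
      have h8 : HasFDerivAt (fun w : V => (T.R a i z : ℂ) • T.J i a (T.ta a i z)
          (T.ta a i w - T.ta a i z)) ((T.R a i z : ℂ) • (T.J i a (T.ta a i z)).comp
            (T.J a i w)) w := h7.fun_const_smul _
      exact h8.restrictScalars ℝ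
    · have h0 : T.R a i z = 0 := R_zero_of hz hi
      have h9 : ((T.R a i z : ℂ) • (T.J i a (T.ta a i z)).comp (T.J a i w)).restrictScalars ℝ
          = 0 := by
        refine ContinuousLinearMap.ext fun v => ?_
        change (T.R a i z : ℂ) • T.J i a (T.ta a i z) (T.J a i w v) = 0
        rw [h0, Complex.ofReal_zero, zero_smul]
      rw [h9]
      simp only [h0, Complex.ofReal_zero, zero_smul]
      exact hasFDerivAt_const _ _
  have h6 := HasFDerivAt.fun_sum (u := Finset.univ) (fun i _ => h5 i)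
  have h7 : fderiv ℝ (fun y => T.s a (z, y)) w = _ := h6.fderiv
  rw [h7, _root_.sum_apply]
  rfl

/-- the second derivative of `s` on the diagonal -/
lemma s_snd {a : I} {z : V} (hz : z ∈ T.ov a a) (u v : V) :
    fderiv ℝ (fun x => fderiv ℝ (T.s a) x (0, u)) (z, z) (0, v) =
      ∑ i, (T.R a i z : ℂ) • T.al a i z v u := by
  have h1 : (fun w => fderiv ℝ (T.s a) (z, w) (0, u)) =ᶠ[𝓝 z]
      fun w => ∑ i, (T.R a i z : ℂ) • T.J i a (T.ta a i z) (T.J a i w u) := s_fst hz u
  rw [fderiv_snd (F := fun x => fderiv ℝ (T.s a) x (0, u))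
    ((s_sh hz).fderiv_apply (0, u)).differentiableAt, h1.fderiv_eq]
  have h5 : ∀ i : I, HasFDerivAt (fun w : V => (T.R a i z : ℂ) • T.J i a (T.ta a i z)
      (T.J a i w u)) (((T.R a i z : ℂ) • (T.J i a (T.ta a i z)).comp
        ((ContinuousLinearMap.apply ℂ V u).comp (fderiv ℂ (T.J a i) z))).restrictScalars ℝ) z := by
    intro i
    by_cases hi : z ∈ T.ov a i
    · have h6 : HasFDerivAt (T.J a i) (fderiv ℂ (T.J a i) z) z :=
        ((J_smooth hi).differentiableAt (by simp)).hasFDerivAt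
      have h7 : HasFDerivAt (fun w => T.J a i w u)
          ((ContinuousLinearMap.apply ℂ V u).comp (fderiv ℂ (T.J a i) z)) z :=
        (ContinuousLinearMap.apply ℂ V u).hasFDerivAt.comp z h6
      have h8 : HasFDerivAt (fun w : V => T.J i a (T.ta a i z) (T.J a i w u))
          ((T.J i a (T.ta a i z)).comp
            ((ContinuousLinearMap.apply ℂ V u).comp (fderiv ℂ (T.J a i) z))) z :=
        (T.J i a (T.ta a i z)).hasFDerivAt.comp z h7
      have h9 : HasFDerivAt (fun w : V => (T.R a i z : ℂ) • T.J i a (T.ta a i z) (T.J a i w u))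
          ((T.R a i z : ℂ) • (T.J i a (T.ta a i z)).comp
            ((ContinuousLinearMap.apply ℂ V u).comp (fderiv ℂ (T.J a i) z))) z :=
        h8.fun_const_smul _
      exact h9.restrictScalars ℝ
    · have h0 : T.R a i z = 0 := R_zero_of hz hi
      have h9 : ((T.R a i z : ℂ) • (T.J i a (T.ta a i z)).comp
          ((ContinuousLinearMap.apply ℂ V u).comp (fderiv ℂ (T.J a i) z))).restrictScalars ℝ
          = 0 := by
        refine ContinuousLinearMap.ext fun v => ?_
        change (T.R a i z : ℂ) • T.J i a (T.ta a i z) (fderiv ℂ (T.J a i) z v u) = 0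
        rw [h0, Complex.ofReal_zero, zero_smul]
      rw [h9]
      simp only [h0, Complex.ofReal_zero, zero_smul]
      exact hasFDerivAt_const _ _
  have h6 := HasFDerivAt.fun_sum (u := Finset.univ) (fun i _ => h5 i)
  rw [h6.fderiv, _root_.sum_apply]
  rfl

/-- `∂̄` of a sum `∑ ρ_i H_i`, `H_i` holomorphic -/
lemma dbv_R {a : I} {z : V} (hz : z ∈ T.ov a a) {H : I → V → W}
    (hH : ∀ i, z ∈ T.ov a i → DifferentiableAt ℂ (H i) z) (v : V) :
    dbv v (fun z => ∑ i, (T.R a i z : ℂ) • H i z) z =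
      ∑ i, dbv v (fun z => (T.R a i z : ℂ)) z • H i z := by
  have h1 : ∀ i : I, (z ∈ T.ov a i ∧ DifferentiableAt ℝ (fun z => (T.R a i z : ℂ)) z) ∨
      (fun z => (T.R a i z : ℂ)) =ᶠ[𝓝 z] fun _ => 0 := by
    intro i
    by_cases hi : z ∈ T.ov a i
    · left
      refine ⟨hi, ?_⟩
      exact (Complex.ofRealCLM.contDiff.contDiffAt.comp z
        (T.R_smooth (a := a) (i := i) hz)).differentiableAt (by simp)
    · right
      filter_upwards [T.R_supp hz hi] with w hw
      simp [hw]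
  have h2 : ∀ i : I, DifferentiableAt ℝ (fun z => (T.R a i z : ℂ) • H i z) z ∧
      dbv v (fun z => (T.R a i z : ℂ) • H i z) z = dbv v (fun z => (T.R a i z : ℂ)) z • H i z := by
    intro i
    rcases h1 i with ⟨hi, hd⟩ | h0
    · have hh : DifferentiableAt ℝ (H i) z := (hH i hi).restrictScalars ℝ
      refine ⟨hd.smul hh, ?_⟩
      rw [dbv_smul hd hh, dbv_hol (hH i hi), smul_zero, add_zero]
    · have h3 : (fun z => (T.R a i z : ℂ) • H i z) =ᶠ[𝓝 z] fun _ => 0 := by
        filter_upwards [h0] with w hw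
        rw [hw, zero_smul]
      refine ⟨(differentiableAt_const (0 : W)).congr_of_eventuallyEq h3, ?_⟩
      rw [dbv_congr h3, dbv_congr h0, dbv_const, dbv_const, zero_smul]
  rw [dbv_sum _ fun i _ => (h2 i).1]
  exact Finset.sum_congr rfl fun i _ => (h2 i).2

lemma al_hol {a i : I} {z : V} (hi : z ∈ T.ov a i) (v u : V) :
    DifferentiableAt ℂ (fun z => T.al a i z v u) z := by
  have h1 : DifferentiableAt ℂ (fun z => T.J i a (T.ta a i z)) z :=
    ((J_smooth (ta_mem' hi)).differentiableAt (by simp)).comp z (hol' hi)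
  have h2 : ContDiffAt ℂ ∞ (fderiv ℂ (T.J a i)) z :=
    (J_smooth hi).fderiv_right (m := ∞) (by simp)
  have h3 : DifferentiableAt ℂ (fun z => fderiv ℂ (T.J a i) z v u) z :=
    ((h2.clm_apply contDiffAt_const).clm_apply contDiffAt_const).differentiableAt (by simp)
  exact h1.clm_apply h3

/-- **the `z̄`-derivative of the second jet of `s`** -/
theorem dbv_s2 {a : I} {z : V} (hz : z ∈ T.ov a a) (u v y : V) :
    dbv y (fun z => fderiv ℝ (fun x => fderiv ℝ (T.s a) x (0, u)) (z, z) (0, v)) z =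
      ∑ i, dbv y (fun z => (T.R a i z : ℂ)) z • T.al a i z v u := by
  rw [← dbv_R hz (H := fun i z => T.al a i z v u) fun i hi => al_hol hi v u]
  refine dbv_congr ?_
  filter_upwards [ev_mem hz] with w hw using s_snd hw u v

end LAt

namespace LBun

variable {I : Type} [Fintype I] {T : LAt I} {A : Type} [NormedRing A] [NormedAlgebra ℂ A]
  {B : LBun T A}

/-- `E⁻¹ ∂_v E` -/
def ep (B : LBun T A) (a i : I) (z v : V) : A := B.E i a (T.ta a i z) * fderiv ℂ (B.E a i) z v

/-- the first derivative of `τ` on the diagonal -/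
lemma t_fst {a : I} {z : V} (hz : z ∈ T.ov a a) (v : V) :
    fderiv ℝ (B.t a) (z, z) (0, v) = ∑ i, (T.R a i z : ℂ) • B.ep a i z v := by
  rw [fderiv_snd (t_sh hz).differentiableAt]
  have h5 : ∀ i : I, HasFDerivAt (fun w : V => (T.R a i z : ℂ) • (B.E i a (T.ta a i z) *
      B.E a i w)) (((T.R a i z : ℂ) • ((ContinuousLinearMap.mul ℂ A (B.E i a (T.ta a i z))).comp
        (fderiv ℂ (B.E a i) z))).restrictScalars ℝ) z := by
    intro i
    by_cases hi : z ∈ T.ov a i
    · have h6 : HasFDerivAt (B.E a i) (fderiv ℂ (B.E a i) z) z :=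
        ((B.hol hi).differentiableAt (by simp)).hasFDerivAt
      have h8 : HasFDerivAt (fun w : V => B.E i a (T.ta a i z) * B.E a i w)
          ((ContinuousLinearMap.mul ℂ A (B.E i a (T.ta a i z))).comp (fderiv ℂ (B.E a i) z)) z :=
        (ContinuousLinearMap.mul ℂ A (B.E i a (T.ta a i z))).hasFDerivAt.comp z h6
      have h9 : HasFDerivAt (fun w : V => (T.R a i z : ℂ) • (B.E i a (T.ta a i z) * B.E a i w))
          ((T.R a i z : ℂ) • ((ContinuousLinearMap.mul ℂ A (B.E i a (T.ta a i z))).comp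
            (fderiv ℂ (B.E a i) z))) z := h8.fun_const_smul _
      exact h9.restrictScalars ℝ
    · have h0 : T.R a i z = 0 := LAt.R_zero_of hz hi
      have h9 : ((T.R a i z : ℂ) • ((ContinuousLinearMap.mul ℂ A (B.E i a (T.ta a i z))).comp
          (fderiv ℂ (B.E a i) z))).restrictScalars ℝ = 0 := by
        refine ContinuousLinearMap.ext fun v => ?_
        change (T.R a i z : ℂ) • (B.E i a (T.ta a i z) * fderiv ℂ (B.E a i) z v) = 0
        rw [h0, Complex.ofReal_zero, zero_smul]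
      rw [h9]
      simp only [h0, Complex.ofReal_zero, zero_smul]
      exact hasFDerivAt_const _ _
  have h6 := HasFDerivAt.fun_sum (u := Finset.univ) (fun i _ => h5 i)
  have h7 : fderiv ℝ (fun y => B.t a (z, y)) z = _ := h6.fderiv
  rw [h7, _root_.sum_apply]
  rfl

lemma ep_hol {a i : I} {z : V} (hi : z ∈ T.ov a i) (v : V) :
    DifferentiableAt ℂ (fun z => B.ep a i z v) z := by
  have h1 : DifferentiableAt ℂ (fun z => B.E i a (T.ta a i z)) z :=
    ((B.hol (LAt.ta_mem' hi)).differentiableAt (by simp)).comp z (LAt.hol' hi)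
  have h2 : ContDiffAt ℂ ∞ (fderiv ℂ (B.E a i)) z := (B.hol hi).fderiv_right (m := ∞) (by simp)
  have h3 : DifferentiableAt ℂ (fun z => fderiv ℂ (B.E a i) z v) z :=
    (h2.clm_apply contDiffAt_const).differentiableAt (by simp)
  exact h1.mul h3

/-- **the `z̄`-derivative of the first jet of `τ`** -/
theorem dbv_t1 {a : I} {z : V} (hz : z ∈ T.ov a a) (v y : V) :
    dbv y (fun z => fderiv ℝ (B.t a) (z, z) (0, v)) z =
      ∑ i, dbv y (fun z => (T.R a i z : ℂ)) z • B.ep a i z v := by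
  rw [← LAt.dbv_R hz (H := fun i z => B.ep a i z v) fun i hi => ep_hol hi v]
  refine dbv_congr ?_
  filter_upwards [LAt.ev_mem hz] with w hw using t_fst hw v

variable [CompleteSpace A]

/-- **the jet of `a_k` for the glued data**: `∂_u ∂_v a_k = ∑ ∂̄_kρ_i J⁻¹(∂_v J) u` -/
theorem jet_aa (B : LBun T A) (a : I) (k : Fin 2) {z : V} (hz : z ∈ T.ov a a) (u v : V) :
    fderiv ℝ (fun y => fderiv ℝ (aa (T.ov a a) (T.s a) (B.t a) k) y (0, u)) (z, 0) (0, v) =
      ∑ i, dbv (ee k) (fun z => (T.R a i z : ℂ)) z • T.al a i z v u := by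
  rw [H955.jet_aa (B.inp a) k hz, LAt.dbv_s2 hz]

/-- **the jet of `ε_k` for the glued data**: `∂_v ε_k = ∑ ∂̄_kρ_i E⁻¹ ∂_v E` -/
theorem jet_ep (B : LBun T A) (a : I) (k : Fin 2) {z : V} (hz : z ∈ T.ov a a) (v : V) :
    fderiv ℝ (ep1 (T.ov a a) (T.s a) (B.t a) k) (z, 0) (0, v) =
      ∑ i, dbv (ee k) (fun z => (T.R a i z : ℂ)) z • B.ep a i z v := by
  rw [H955.jet_ep (B.inp a) k hz, dbv_t1 hz]

end LBun

end Vale.Agent.P267.H955
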