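import Vale.Agent.P267.H955.NKof
import Vale.Agent.P267.H156.Chart
import Vale.Agent.P267.H315.PSof

/-!
# P267, RRK-GLOB: the parametrix `PS B` from compatible data
-/

set_option linter.unusedSectionVars false

open scoped Manifold ContDiff Topology ComplexConjugate Matrix
open Set Filter Metric MeasureTheory Vale.Agent.P267.H315 Vale.Agent.P267.H734 Vale.Agent.P267.FL
  Vale.Agent.P267.RR Vale.Agent.P267.H156 Vale.Agent.P267.H551

noncomputable section

namespace Vale.Agent.P267.H955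

/-- a profile -/
def prof (x : ℝ) : ℝ := Real.smoothTransition (2 - x)

theorem prof_zero : prof 0 = 1 := Real.smoothTransition.one_of_one_le (by norm_num)

theorem profile : Profile prof 2 where
  smooth := Real.smoothTransition.contDiff.comp (by fun_prop)
  r_nonneg := by norm_num
  zero x hx := Real.smoothTransition.zero_of_nonpos (by linarith)
  near := by
    filter_upwards [gt_mem_nhds (show (0 : ℝ) < 1 by norm_num)] with x hx
    rw [prof_zero]
    exact Real.smoothTransition.one_of_one_le (by linarith)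

section bound

variable {Vf : Type} [NormedAddCommGroup Vf] [NormedSpace ℂ Vf]
  {W : Type} [NormedAddCommGroup W] [NormedSpace ℂ W]

theorem bound_of {κ : V → V → (Vf →L[ℂ] W)} {Q : Set V} {C d : ℝ}
    (hC : ∀ z ∈ Q, ∀ w, ‖w - z‖ < d → ‖κ z w‖ ≤ C)
    (hcut : ∀ z w, d ≤ ‖w - z‖ → κ z w = 0) {u : V → Vf} {M : ℝ} {z : V} (hz : z ∈ Q)
    (hM : ∀ w : V, ‖w - z‖ < d → ‖u w‖ ≤ M) :
    ‖∫ w, κ z w (u w)‖ ≤ (C * volume.real (ball (0 : V) d)) * M := by
  have e1 : ∫ w, κ z w (u w) = ∫ w in ball z d, κ z w (u w) := by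
    refine (setIntegral_eq_integral_of_forall_compl_eq_zero fun w hw => ?_).symm
    rw [mem_ball, dist_eq_norm, not_lt] at hw
    rw [hcut z w hw]
    rfl
  have e2 : volume.real (ball z d) = volume.real (ball (0 : V) d) := by
    rw [Measure.real, Measure.real, Measure.addHaar_ball_center]
  rw [e1]
  have h1 := norm_setIntegral_le_of_norm_le_const (μ := volume) (s := ball z d)
    (f := fun w => κ z w (u w)) (C := C * M) measure_ball_lt_top (fun w hw => by
      rw [mem_ball, dist_eq_norm] at hw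
      have h2 := hC z hz w hw
      exact (ContinuousLinearMap.le_opNorm _ _).trans
        (mul_le_mul h2 (hM w hw) (norm_nonneg _) ((norm_nonneg _).trans h2)))
  rw [e2] at h1
  linarith

end bound

section near

variable {r : ℕ} {D : KData (EndF r)} {f : ℝ → ℝ} {d t : ℝ} {z w : V}

theorem kP0_near (h : ‖w - z‖ < d) (v : Fin 2 → Fin r → ℂ) : kP0 D f d t z w v =
    cpi • (D.Kf (hKc f t) 2 (z, w) (v 1) - D.Kf (hKc f t) 3 (z, w) (v 0)) := by
  rw [kP0_apply, cutk_of_mem h, cutk_of_mem h]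
  rfl

theorem kP1_near (h : ‖w - z‖ < d) (v : Fin r → ℂ) : kP1 D f d t z w v =
    cpi • fun k => D.Kf (hKc f t) (c2 k) (z, w) v := by
  funext k
  rw [kP1_apply, cutk_of_mem h]
  rfl

theorem kS0_near (h : ‖w - z‖ < d) (v : Fin r → ℂ) : kS0 D f d t z w v =
    (-cpi) • D.Sf (ft f t) 2 3 (z, w) v := by
  rw [kS0_apply, cutk_of_mem h]
  rfl

theorem kS1_near (h : ‖w - z‖ < d) (v : Fin 2 → Fin r → ℂ) : kS1 D f d t z w v =
    (-cpi) • fun k => D.Sf (ft f t) (c2 k) 2 (z, w) (v 1) -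
      D.Sf (ft f t) (c2 k) 3 (z, w) (v 0) := by
  funext k
  rw [kS1_apply, cutk_of_mem h, cutk_of_mem h]
  rfl

theorem kS2_near (h : ‖w - z‖ < d) (v : Fin r → ℂ) : kS2 D f d t z w v =
    (-cpi) • D.Sf (ft f t) 0 1 (z, w) v := by
  rw [kS2_apply, cutk_of_mem h]
  rfl

end near

variable {X : Type*} [TopologicalSpace X] [ChartedSpace C2 X] [IsManifold 𝓘(ℂ, C2) ω X]
  {A : FinAt X} {r : ℕ} {B : Bun A r} {G : Glued A B} {f : ℝ → ℝ}

namespace Unif

variable (U : Unif G f)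

/-- the kernels -/
def lk : LK A r where
  P0 c := kP0 (G.D c) f U.d U.t
  P1 c := kP1 (G.D c) f U.d U.t
  S0 c := kS0 (G.D c) f U.d U.t
  S1 c := kS1 (G.D c) f U.d U.t
  S2 c := kS2 (G.D c) f U.d U.t

theorem chart (hf : f 0 = 1) (c : Fin A.N) : ChartPS (A.O c) (U.Q c) U.d
    (kP0 (G.D c) f U.d U.t) (kP1 (G.D c) f U.d U.t) (kS0 (G.D c) f U.d U.t)
    (kS1 (G.D c) f U.d U.t) (kS2 (G.D c) f U.d U.t) :=
  (U.loc c).chart U.d_pos (A.isOpen_O c) (U.open_Q c) hf

theorem ss_bound [CompactSpace X] {ρ : ℝ} (P : Profile f ρ) (c : Fin A.N) :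
    ∃ M : ℝ, ∀ z ∈ U.Q c, ∀ w, ‖w - z‖ < U.d → ∀ j k, ‖ss (G.D c) f U.t j k (z, w)‖ ≤ M := by
  set K : Set VV := (fun p : V × V => ((p.1, p.1 + p.2) : VV)) ''
    ((A.e c '' closure (U.Vc c)) ×ˢ closedBall (0 : V) U.d) with hK
  have hKc : IsCompact K :=
    ((U.isCompact_cl c).prod (isCompact_closedBall _ _)).image (by fun_prop)
  have hKU : K ⊆ G.Ud c := by
    rintro _ ⟨⟨z, v⟩, ⟨hz, hv⟩, rfl⟩
    exact (U.tube_cl c z hz (z + v) (by simpa using hv)).1
  have hcont : ContinuousOn (fun x : VV => fun jk : Fin 4 × Fin 4 =>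
      ss (G.D c) f U.t jk.1 jk.2 x) K := by
    refine continuousOn_pi.2 fun jk x hx => ?_
    exact ((G.lim c).rel.cSf (G.lim c).open_U (hKU hx) (P.smooth_ft U.t).contDiffAt
      jk.1 jk.2).continuousAt.continuousWithinAt
  obtain ⟨M, hM⟩ := hKc.exists_bound_of_continuousOn hcont
  refine ⟨M, fun z hz w hw j k => ?_⟩
  have h1 : ((z, w) : VV) ∈ K :=
    ⟨(z, w - z), ⟨U.Q_sub_cl c hz, by simpa using hw.le⟩, by simp⟩
  exact (norm_le_pi_norm (fun jk : Fin 4 × Fin 4 => ss (G.D c) f U.t jk.1 jk.2 (z, w))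
    (j, k)).trans (hM _ h1)

theorem kS_bound [CompactSpace X] {ρ : ℝ} (P : Profile f ρ) (c : Fin A.N) :
    ∃ M : ℝ, ∀ z ∈ U.Q c, ∀ w, ‖w - z‖ < U.d → ‖kS0 (G.D c) f U.d U.t z w‖ ≤ M ∧
      ‖kS1 (G.D c) f U.d U.t z w‖ ≤ M ∧ ‖kS2 (G.D c) f U.d U.t z w‖ ≤ M := by
  obtain ⟨M, hM⟩ := U.ss_bound P c
  refine ⟨‖cpi‖ * M + ∑ k : Fin 2, ‖cpi‖ * (‖mun (Fin r → ℂ) k 1‖ * M +
    ‖mun (Fin r → ℂ) k 0‖ * M), fun z hz w hw => ?_⟩
  have hM0 : 0 ≤ M := (norm_nonneg _).trans (hM z hz w hw 0 0)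
  have hs : 0 ≤ ∑ k : Fin 2, ‖cpi‖ * (‖mun (Fin r → ℂ) k 1‖ * M +
    ‖mun (Fin r → ℂ) k 0‖ * M) := by positivity
  have h0 : 0 ≤ ‖cpi‖ * M := by positivity
  refine ⟨?_, ?_, ?_⟩
  · have e : kS0 (G.D c) f U.d U.t z w = (-cpi) • ss (G.D c) f U.t 2 3 (z, w) :=
      cutk_of_mem hw
    rw [e, norm_smul, norm_neg]
    have := mul_le_mul_of_nonneg_left (hM z hz w hw 2 3) (norm_nonneg cpi)
    linarith
  · rw [kS1_eq]
    refine (norm_sum_le _ _).trans ?_
    refine (Finset.sum_le_sum (g := fun k : Fin 2 => ‖cpi‖ * (‖mun (Fin r → ℂ) k 1‖ * M +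
      ‖mun (Fin r → ℂ) k 0‖ * M)) fun k _ => ?_).trans (by linarith)
    rw [norm_smul, norm_neg, cutk_of_mem hw, cutk_of_mem hw]
    refine mul_le_mul_of_nonneg_left ((norm_sub_le _ _).trans (add_le_add ?_ ?_)) (norm_nonneg _)
    · exact (ContinuousLinearMap.le_opNorm _ _).trans
        (mul_le_mul_of_nonneg_left (hM z hz w hw _ _) (norm_nonneg _))
    · exact (ContinuousLinearMap.le_opNorm _ _).trans
        (mul_le_mul_of_nonneg_left (hM z hz w hw _ _) (norm_nonneg _))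
  · have e : kS2 (G.D c) f U.d U.t z w = (-cpi) • ss (G.D c) f U.t 0 1 (z, w) :=
      cutk_of_mem hw
    rw [e, norm_smul, norm_neg]
    have := mul_le_mul_of_nonneg_left (hM z hz w hw 0 1) (norm_nonneg cpi)
    linarith

variable [CompactSpace X] {ρ : ℝ} (P : Profile f ρ) (hf : f 0 = 1)

theorem kfar {D : KData (EndF r)} {f : ℝ → ℝ} {d t : ℝ} {z w : V} (h : d ≤ ‖w - z‖) :
    KZero D f d t z w := kzero_of fun h' => absurd h' (not_lt.2 h)

include hf in
theorem nP0 : NK B.sb1 B.sb0 U.Q U.L U.lk.P0 :=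
  U.nk (fun c z w h => (kfar (D := G.D c) (f := f) (t := U.t) h).1)
    (fun c z w _ h => (kzero_of fun _ => h).1)
    (fun c c' z w _ hw h1 h2 h3 v => by
      change _ • kP0 (G.D c') f U.d U.t (A.tau c c' z) (A.tau c c' w) _ =
        B.sb0.T c c' z (kP0 (G.D c) f U.d U.t z w v)
      rw [kP0_near h1, kP0_near h2, map_smul, ← cmpP0 h3 hw, smul_comm])
    (fun c u hu z hz => (U.chart hf c).int_p0 u hu.continuousOn z hz)
    (fun c u hu => (U.chart hf c).smooth_p0 u hu)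
    (fun c => by
      obtain ⟨C, -, h, -⟩ := (U.chart hf c).bound
      exact ⟨C, fun u M hu z hz hM => h u M hu.continuousOn z hz hM⟩)

include hf in
theorem nP1 : NK B.sb2 B.sb1 U.Q U.L U.lk.P1 :=
  U.nk (fun c z w h => (kfar (D := G.D c) (f := f) (t := U.t) h).2.1)
    (fun c z w _ h => (kzero_of fun _ => h).2.1)
    (fun c c' z w hz hw h1 h2 h3 v => by
      change _ • kP1 (G.D c') f U.d U.t (A.tau c c' z) (A.tau c c' w) _ =
        B.sb1.T c c' z (kP1 (G.D c) f U.d U.t z w v)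
      rw [kP1_near h1, kP1_near h2, map_smul, ← cmpP1 h3 hz hw, smul_comm])
    (fun c u hu z hz => (U.chart hf c).int_p1 u hu.continuousOn z hz)
    (fun c u hu => (U.chart hf c).smooth_p1 u hu)
    (fun c => by
      obtain ⟨C, -, -, h⟩ := (U.chart hf c).bound
      exact ⟨C, fun u M hu z hz hM => h u M hu.continuousOn z hz hM⟩)

include P hf in
theorem nS0 : NK B.sb0 B.sb0 U.Q U.L U.lk.S0 :=
  U.nk (fun c z w h => (kfar (D := G.D c) (f := f) (t := U.t) h).2.2.1)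
    (fun c z w _ h => (kzero_of fun _ => h).2.2.1)
    (fun c c' z w _ _ h1 h2 h3 v => by
      change _ • kS0 (G.D c') f U.d U.t (A.tau c c' z) (A.tau c c' w) _ =
        B.sb0.T c c' z (kS0 (G.D c) f U.d U.t z w v)
      rw [kS0_near h1, kS0_near h2, map_smul, ← cmpS0 h3, smul_comm])
    (fun c u hu z hz => (U.chart hf c).int_s0 u hu.continuousOn z hz)
    (fun c u hu => (U.chart hf c).smooth_s0u u hu)
    (fun c => by
      obtain ⟨C, h⟩ := U.kS_bound P c
      exact ⟨_, fun u M hu z hz hM => bound_of (fun z hz w hw => (h z hz w hw).1)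
        (fun z w hw => (kfar hw).2.2.1) hz hM⟩)

include P hf in
theorem nS1 : NK B.sb1 B.sb1 U.Q U.L U.lk.S1 :=
  U.nk (fun c z w h => (kfar (D := G.D c) (f := f) (t := U.t) h).2.2.2.1)
    (fun c z w _ h => (kzero_of fun _ => h).2.2.2.1)
    (fun c c' z w hz hw h1 h2 h3 v => by
      change _ • kS1 (G.D c') f U.d U.t (A.tau c c' z) (A.tau c c' w) _ =
        B.sb1.T c c' z (kS1 (G.D c) f U.d U.t z w v)
      rw [kS1_near h1, kS1_near h2, map_smul, ← cmpS1 h3 hz hw, smul_comm])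
    (fun c u hu z hz => (U.chart hf c).int_s1 u hu.continuousOn z hz)
    (fun c u hu => (U.chart hf c).smooth_s1u u hu)
    (fun c => by
      obtain ⟨C, h⟩ := U.kS_bound P c
      exact ⟨_, fun u M hu z hz hM => bound_of (fun z hz w hw => (h z hz w hw).2.1)
        (fun z w hw => (kfar hw).2.2.2.1) hz hM⟩)

include P hf in
theorem nS2 : NK B.sb2 B.sb2 U.Q U.L U.lk.S2 :=
  U.nk (fun c z w h => (kfar (D := G.D c) (f := f) (t := U.t) h).2.2.2.2)
    (fun c z w _ h => (kzero_of fun _ => h).2.2.2.2)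
    (fun c c' z w hz hw h1 h2 h3 v => by
      change _ • kS2 (G.D c') f U.d U.t (A.tau c c' z) (A.tau c c' w) _ =
        B.sb2.T c c' z (kS2 (G.D c) f U.d U.t z w v)
      rw [kS2_near h1, kS2_near h2, map_smul, ← cmpS2 h3 hz hw, smul_comm])
    (fun c u hu z hz => (U.chart hf c).int_s2 u hu.continuousOn z hz)
    (fun c u hu => (U.chart hf c).smooth_s2u u hu)
    (fun c => by
      obtain ⟨C, h⟩ := U.kS_bound P c
      exact ⟨_, fun u M hu z hz hM => bound_of (fun z hz w hw => (h z hz w hw).2.2)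
        (fun z w hw => (kfar hw).2.2.2.2) hz hM⟩)

include P hf in
/-- **compatible local kernels with the identities** -/
theorem psl : PSL B U.Q U.L U.lk where
  nP0 := U.nP0 hf
  nP1 := U.nP1 hf
  nS0 := U.nS0 P hf
  nS1 := U.nS1 P hf
  nS2 := U.nS2 P hf
  sS0 c := (U.chart hf c).smooth_s0
  sS1 c := (U.chart hf c).smooth_s1
  sS2 c := (U.chart hf c).smooth_s2
  id0 c u hu z hz := (U.chart hf c).eq0 u hu z hz
  id1 c u hu z hz j := congrFun ((U.chart hf c).eq1 u hu z hz) j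
  id2 c u hu z hz := (U.chart hf c).eq2 u hu z hz

end Unif

/-- **the parametrix**, from compatible data -/
theorem exists_PS_of_glued [T2Space X] [CompactSpace X] (G : Glued A B) :
    ∃ P : PS B, ∀ a, ∀ z ∈ A.K a, P.dens a z = -cpi * trF (Fin r → ℂ) ((G.D a).Ph (z, z)) := by
  obtain ⟨U⟩ := exists_unif G profile (by norm_num)
  refine ⟨(U.psl profile prof_zero).ps, fun a z hz => ?_⟩
  rw [PSL.ps_dens _ (U.K_sub a hz)]
  exact (U.loc a).trace_diag U.d_pos prof_zero (U.K_sub a hz)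

end Vale.Agent.P267.H955
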