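import Vale.Agent.P267.H955.Cmp
import Vale.Agent.P267.H315.NKer

/-!
# P267, RRK-GLOB (B1): compatible families of kernels from the uniform choices
-/

set_option linter.unusedSectionVars false

open scoped Manifold ContDiff Topology ComplexConjugate Matrix
open Set Filter Metric MeasureTheory Vale.Agent.P267.H315 Vale.Agent.P267.H734 Vale.Agent.P267.FL
  Vale.Agent.P267.RR Vale.Agent.P267.H156

noncomputable section

namespace Vale.Agent.P267.H955

variable {X : Type*} [TopologicalSpace X] [ChartedSpace C2 X] [IsManifold 𝓘(ℂ, C2) ω X]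
  {A : FinAt X} {r : ℕ} {B : Bun A r} {G : Glued A B} {f : ℝ → ℝ}

/-- all kernels vanish at `x` -/
def Van (D : KData (EndF r)) (f : ℝ → ℝ) (t : ℝ) (x : VV) : Prop :=
  (∀ j k, ss D f t j k x = 0) ∧ ∀ j, ks D f t j x = 0

namespace Unif

variable (U : Unif G f)

/-- the sets `Q c` -/
def Q (c : Fin A.N) : Set V := ovr A U.Vc c

/-- the compact sets `L c` -/
def L (c : Fin A.N) : Set V :=
  (fun p : V × V => p.1 + p.2) '' ((A.e c '' closure (U.Vc c)) ×ˢ closedBall (0 : V) U.d)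

theorem open_Q (c : Fin A.N) : IsOpen (U.Q c) := (A.e c).isOpen_inter_preimage_symm (U.open_V c)

theorem Q_sub_cl (c : Fin A.N) : U.Q c ⊆ A.e c '' closure (U.Vc c) := by
  rintro z ⟨h1, h2⟩
  exact ⟨(A.e c).symm z, subset_closure h2, (A.e c).right_inv h1⟩

theorem Q_sub (c : Fin A.N) : U.Q c ⊆ A.O c := by
  rintro z ⟨h1, h2⟩
  exact ⟨h1, U.cl_V c (subset_closure h2)⟩

theorem K_sub (c : Fin A.N) : A.K c ⊆ U.Q c := by
  rintro _ ⟨x, hx, rfl⟩
  have h1 : x ∈ (A.e c).source := A.U_sub c (A.rho_supp c hx)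
  refine ⟨(A.e c).map_source h1, ?_⟩
  rw [(A.e c).left_inv h1]
  exact U.supp_V c hx

theorem isCompact_cl [CompactSpace X] (c : Fin A.N) : IsCompact (A.e c '' closure (U.Vc c)) :=
  isClosed_closure.isCompact.image_of_continuousOn
    ((A.e c).continuousOn.mono ((U.cl_V c).trans (A.U_sub c)))

theorem isCompact_L [CompactSpace X] (c : Fin A.N) : IsCompact (U.L c) :=
  ((U.isCompact_cl c).prod (isCompact_closedBall _ _)).image (by fun_prop)

theorem L_sub (c : Fin A.N) : U.L c ⊆ A.O c := by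
  rintro _ ⟨⟨z, v⟩, ⟨hz, hv⟩, rfl⟩
  exact (U.tube_cl c z hz (z + v) (by simpa using hv)).2

theorem mem_L {c : Fin A.N} {z w : V} (hz : z ∈ U.Q c) (hw : ‖w - z‖ ≤ U.d) : w ∈ U.L c :=
  ⟨(z, w - z), ⟨U.Q_sub_cl c hz, by simpa using hw⟩, add_sub_cancel _ _⟩

/-- near or far from the diagonal -/
theorem cases {c c' : Fin A.N} {z : V} (hz : z ∈ U.Q c) (hzo : z ∈ A.ov c c')
    (hz' : A.tau c c' z ∈ U.Q c') (w : V) :
    (w ∈ A.ov c c' ∧ ‖w - z‖ < U.d ∧ ‖A.tau c c' w - A.tau c c' z‖ < U.d ∧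
      KData.Compat (G.D c) (G.D c') (z, w) (A.tau c c' z, A.tau c c' w) (A.J c c' z)
        (A.J c c' w) (mL (B.E c c' z)) (mL (B.E c c' w))) ∨
    ((‖w - z‖ < U.d → Van (G.D c) f U.t (z, w)) ∧
      (w ∈ A.ov c c' → ‖A.tau c c' w - A.tau c c' z‖ < U.d →
        Van (G.D c') f U.t (A.tau c c' z, A.tau c c' w))) := by
  have hzV : (A.e c).symm z ∈ U.Vc c' := by
    have := hz'.2
    rwa [FinAt.symm_tau hzo] at this
  by_cases h : ‖w - z‖ < U.δ'
  · obtain ⟨h1, h2, h3⟩ := U.near c c' z hz hzV w h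
    exact Or.inl ⟨h1, h.trans_le U.δ'_le, h2, h3⟩
  · rw [not_lt] at h
    refine Or.inr ⟨fun h1 => U.zero c z hz w (U.δ1_le.trans h) h1, fun hw h1 => ?_⟩
    refine U.zero c' _ hz' _ ?_ h1
    by_contra h2
    rw [not_le] at h2
    have h3 := U.near1 c' c (A.tau c c' z) hz' (by
      rw [FinAt.symm_tau hzo]
      exact hz.2) (A.tau c c' w) h2
    rw [FinAt.tau_tau hw, FinAt.tau_tau hzo] at h3
    exact absurd h3 (not_lt.2 h)

variable {Vf : Type} [NormedAddCommGroup Vf] [NormedSpace ℂ Vf]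
  {W : Type} [NormedAddCommGroup W] [NormedSpace ℂ W]

/-- **compatible families of kernels** -/
theorem nk [CompactSpace X] {S : SB A Vf} {S' : SB A W}
    {κ : Fin A.N → C2 → C2 → (Vf →L[ℂ] W)}
    (cut : ∀ c z w, U.d ≤ ‖w - z‖ → κ c z w = 0)
    (van : ∀ c z w, ‖w - z‖ < U.d → Van (G.D c) f U.t (z, w) → κ c z w = 0)
    (cmp : ∀ c c' z w, z ∈ A.ov c c' → w ∈ A.ov c c' → ‖w - z‖ < U.d →
      ‖A.tau c c' w - A.tau c c' z‖ < U.d →
      KData.Compat (G.D c) (G.D c') (z, w) (A.tau c c' z, A.tau c c' w) (A.J c c' z)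
        (A.J c c' w) (mL (B.E c c' z)) (mL (B.E c c' w)) → ∀ v,
      ((‖(A.J c c' w).det‖ ^ 2 : ℝ) : ℂ) • κ c' (A.tau c c' z) (A.tau c c' w) (S.T c c' w v) =
        S'.T c c' z (κ c z w v))
    (int : ∀ c (u : C2 → Vf), ContDiffOn ℝ ∞ u (A.O c) → ∀ z ∈ U.Q c,
      Integrable fun w => κ c z w (u w))
    (smooth : ∀ c (u : C2 → Vf), ContDiffOn ℝ ∞ u (A.O c) →
      ContDiffOn ℝ ∞ (fun z => ∫ w, κ c z w (u w)) (U.Q c))
    (bound : ∀ c, ∃ B : ℝ, ∀ (u : C2 → Vf) (M : ℝ), ContDiffOn ℝ ∞ u (A.O c) →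
      ∀ z ∈ U.Q c, (∀ w : V, ‖w - z‖ < U.d → ‖u w‖ ≤ M) → ‖∫ w, κ c z w (u w)‖ ≤ B * M) :
    NK S S' U.Q U.L κ where
  open_Q := U.open_Q
  K_sub := U.K_sub
  Q_sub := U.Q_sub
  cpt := U.isCompact_L
  L_sub := U.L_sub
  supp c z hz w hw := by
    by_contra h
    refine hw (cut c z w ?_)
    by_contra h2
    exact h (U.mem_L hz (not_le.1 h2).le)
  cmp c c' z hz hzo hz' w hw v := by
    rcases U.cases hz hzo hz' w with ⟨-, h2, h3, h4⟩ | ⟨h1, h2⟩
    · exact cmp c c' z w hzo hw h2 h3 h4 v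
    · have e1 : κ c z w = 0 := by
        by_cases h : ‖w - z‖ < U.d
        · exact van c z w h (h1 h)
        · exact cut c z w (not_lt.1 h)
      have e2 : κ c' (A.tau c c' z) (A.tau c c' w) = 0 := by
        by_cases h : ‖A.tau c c' w - A.tau c c' z‖ < U.d
        · exact van c' _ _ h (h2 hw h)
        · exact cut c' _ _ (not_lt.1 h)
      rw [e1, e2]
      simp
  cmp0 c c' z hz hzo hz' w _ hw := by
    rcases U.cases hz hzo hz' w with ⟨h1, -⟩ | ⟨h1, -⟩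
    · exact absurd h1 hw
    · by_cases h : ‖w - z‖ < U.d
      · exact van c z w h (h1 h)
      · exact cut c z w (not_lt.1 h)
  int := int
  smooth := smooth
  bound c := by
    obtain ⟨C, hC⟩ := bound c
    exact ⟨C, fun u M hu hM z hz => hC u M hu z hz fun w hw => hM w (U.mem_L hz hw.le)⟩

end Unif

end Vale.Agent.P267.H955
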