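import Vale.Agent.P267.H955.Glued
import Vale.Agent.P267.H156.Sing
import Vale.Agent.P267.H315.Equiv2

/-!
# P267, RRK-GLOB (B1): uniform choices near the diagonal

`Glued A B` : compatible data in all charts; `Unif G f r` : open sets `Vc c`, radii `d`, `δ'`, `δ1`
and the time `t` such that the local theorem holds in every chart and the kernels of two charts can
be compared.
-/

set_option linter.unusedSectionVars false

open scoped Manifold ContDiff Topology ComplexConjugate Matrix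
open Set Filter Metric Vale.Agent.P267.H315 Vale.Agent.P267.H734 Vale.Agent.P267.FL
  Vale.Agent.P267.RR Vale.Agent.P267.H156

noncomputable section

namespace Vale.Agent.P267.H955

variable {X : Type*} [TopologicalSpace X] [ChartedSpace C2 X] [IsManifold 𝓘(ℂ, C2) ω X]

/-- compatible data near the diagonal in all charts -/
structure Glued (A : FinAt X) {r : ℕ} (B : Bun A r) where
  D : Fin A.N → KData (EndF r)
  Ud : Fin A.N → Set VV
  h : Fin A.N → V → Matrix (Fin 2) (Fin 2) ℂ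
  lim : ∀ a, LimHyp (D a) (Ud a) (A.O a) (h a)
  compat : ∀ a b, ∀ z ∈ A.ov a b, ∀ᶠ x : VV in 𝓝 (z, z),
    KData.Compat (D a) (D b) x (A.tau a b x.1, A.tau a b x.2) (A.J a b x.1) (A.J a b x.2)
      (mL (B.E a b x.1)) (mL (B.E a b x.2))

/-- a property near the diagonal holds uniformly near the diagonal of a compact set -/
lemma unif_near {K : Set V} (hK : IsCompact K) {P : VV → Prop}
    (h : ∀ z ∈ K, ∀ᶠ x : VV in 𝓝 (z, z), P x) :
    ∃ δ > 0, ∀ z ∈ K, ∀ w : V, ‖w - z‖ ≤ δ → P (z, w) := by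
  have hU : IsOpen {p : V × V | ∀ᶠ x in 𝓝 ((p.1, p.1 + p.2) : VV), P x} := by
    have h1 : Continuous fun p : V × V => ((p.1, p.1 + p.2) : VV) := by fun_prop
    exact isOpen_setOf_eventually_nhds.preimage h1
  obtain ⟨δ, hδ, hsub⟩ := exists_tube (P := V) (V := V) hK hU (fun z hz => by
    change ∀ᶠ x in 𝓝 ((z, z + 0) : VV), P x
    rw [add_zero]
    exact h z hz)
  refine ⟨δ, hδ, fun z hz w hw => ?_⟩
  have h2 : (z, w - z) ∈ K ×ˢ closedBall (0 : V) δ := ⟨hz, by simpa using hw⟩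
  have h3 : ∀ᶠ x in 𝓝 ((z, z + (w - z)) : VV), P x := hsub h2
  rw [add_sub_cancel] at h3
  exact h3.self_of_nhds

/-- choose a common small radius -/
lemma common_radius {ι : Type*} [Finite ι] {P : ι → ℝ → Prop}
    (h : ∀ i, ∃ d > 0, ∀ e, 0 < e → e ≤ d → P i e) :
    ∃ d > 0, ∀ e, 0 < e → e ≤ d → ∀ i, P i e := by
  choose d hd hP using h
  cases nonempty_fintype ι
  rcases isEmpty_or_nonempty ι with he | hne
  · exact ⟨1, one_pos, fun e _ _ i => (he.false i).elim⟩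
  · refine ⟨Finset.univ.inf' Finset.univ_nonempty d, ?_, fun e he1 he2 i => ?_⟩
    · exact (Finset.lt_inf'_iff _).2 fun i _ => hd i
    · exact hP i e he1 (he2.trans (Finset.inf'_le _ (Finset.mem_univ i)))

/-- the part of the chart `c` over `S` -/
def ovr (A : FinAt X) (S : Fin A.N → Set X) (c : Fin A.N) : Set V :=
  {z | z ∈ (A.e c).target ∧ (A.e c).symm z ∈ S c}

/-- **uniform choices** -/
structure Unif {A : FinAt X} {r : ℕ} {B : Bun A r} (G : Glued A B) (f : ℝ → ℝ) where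
  Vc : Fin A.N → Set X
  open_V : ∀ c, IsOpen (Vc c)
  supp_V : ∀ c, tsupport (A.rho c) ⊆ Vc c
  cl_V : ∀ c, closure (Vc c) ⊆ A.U c
  d : ℝ
  t : ℝ
  δ' : ℝ
  δ1 : ℝ
  d_pos : 0 < d
  t_pos : 0 < t
  δ'_pos : 0 < δ'
  δ1_pos : 0 < δ1
  δ'_le : δ' ≤ d
  δ1_le : δ1 ≤ δ'
  loc : ∀ c, LocPS (G.D c) (G.Ud c) (A.O c) (ovr A Vc c) f d t
  /-- the tube over the closure -/
  tube_cl : ∀ c, ∀ z ∈ A.e c '' closure (Vc c), ∀ w : V, ‖w - z‖ ≤ d →
    (z, w) ∈ G.Ud c ∧ w ∈ A.O c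
  /-- the kernels vanish away from the diagonal -/
  zero : ∀ c, ∀ z ∈ ovr A Vc c, ∀ w : V, δ1 ≤ ‖w - z‖ → ‖w - z‖ < d →
    (∀ j k, ss (G.D c) f t j k (z, w) = 0) ∧ ∀ j, ks (G.D c) f t j (z, w) = 0
  /-- comparison of two charts near the diagonal -/
  near : ∀ c c', ∀ z ∈ ovr A Vc c, (A.e c).symm z ∈ Vc c' → ∀ w : V, ‖w - z‖ < δ' →
    w ∈ A.ov c c' ∧ ‖A.tau c c' w - A.tau c c' z‖ < d ∧
    KData.Compat (G.D c) (G.D c') (z, w) (A.tau c c' z, A.tau c c' w) (A.J c c' z) (A.J c c' w)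
      (mL (B.E c c' z)) (mL (B.E c c' w))
  near1 : ∀ c c', ∀ z ∈ ovr A Vc c, (A.e c).symm z ∈ Vc c' → ∀ w : V, ‖w - z‖ < δ1 →
    ‖A.tau c c' w - A.tau c c' z‖ < δ'

section exist

variable [T2Space X] [CompactSpace X] {A : FinAt X} {r : ℕ} {B : Bun A r}

/-- **existence of uniform choices** -/
theorem exists_unif (G : Glued A B) {f : ℝ → ℝ} {ρ : ℝ} (P : Profile f ρ) (hρ : 0 < ρ) :
    Nonempty (Unif G f) := by
  classical
  -- the open sets
  have hV : ∀ c, ∃ S : Set X, IsOpen S ∧ tsupport (A.rho c) ⊆ S ∧ closure S ⊆ A.U c := fun c =>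
    normal_exists_closure_subset (isClosed_tsupport _) (A.isOpen_U c) (A.rho_supp c)
  choose S hSo hSs hSc using hV
  have hSe : ∀ c, closure (S c) ⊆ (A.e c).source := fun c => (hSc c).trans (A.U_sub c)
  -- compact sets in the charts
  have hcpt : ∀ (c : Fin A.N) (Z : Set X), IsClosed Z → Z ⊆ closure (S c) →
      IsCompact (A.e c '' Z) := fun c Z hZ hZS =>
    hZ.isCompact.image_of_continuousOn ((A.e c).continuousOn.mono (hZS.trans (hSe c)))
  have hO : ∀ c, A.e c '' closure (S c) ⊆ A.O c := by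
    rintro c _ ⟨x, hx, rfl⟩
    exact FinAt.mem_O (hSc c hx)
  have hov : ∀ c, ovr A S c ⊆ A.e c '' closure (S c) := by
    rintro c z ⟨h1, h2⟩
    exact ⟨(A.e c).symm z, subset_closure h2, (A.e c).right_inv h1⟩
  have hovo : ∀ c, IsOpen (ovr A S c) := fun c =>
    (A.e c).isOpen_inter_preimage_symm (hSo c)
  -- the tubes
  have ht1 : ∀ c, ∃ p : ℝ × ℝ, ∃ d₀ > 0, ∀ d, 0 < d → d ≤ d₀ →
      H156.Tube (G.D c) (G.Ud c) (A.O c) (G.h c) (A.e c '' closure (S c)) p.1 p.2 d := by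
    intro c
    obtain ⟨a, b, d₀, hd₀, h⟩ := (G.lim c).exists_tube (hcpt c _ isClosed_closure le_rfl) (hO c)
    exact ⟨(a, b), d₀, hd₀, h⟩
  choose p ht2 using ht1
  obtain ⟨d1, hd1, hT⟩ := common_radius ht2
  -- the local theorem
  obtain ⟨d2, hd2, hL⟩ := common_radius fun c =>
    rrkLoc (G.lim c) P hρ (hovo c) (hov c) (hcpt c _ isClosed_closure le_rfl) (hO c)
  set d := min d1 d2 with hd
  have hdpos : 0 < d := lt_min hd1 hd2
  -- pairs of charts
  have hpair : ∀ q : Fin A.N × Fin A.N, IsCompact (A.e q.1 '' (closure (S q.1) ∩ closure (S q.2))) :=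
    fun q => hcpt q.1 _ (isClosed_closure.inter isClosed_closure) inter_subset_left
  have hmem : ∀ q : Fin A.N × Fin A.N, ∀ z ∈ A.e q.1 '' (closure (S q.1) ∩ closure (S q.2)),
      z ∈ A.ov q.1 q.2 := by
    rintro q _ ⟨x, hx, rfl⟩
    exact FinAt.mem_ov (hSc _ hx.1) (hSc _ hx.2)
  have hcont : ∀ (q : Fin A.N × Fin A.N) (ε : ℝ), 0 < ε →
      ∀ z ∈ A.e q.1 '' (closure (S q.1) ∩ closure (S q.2)), ∀ᶠ x : VV in 𝓝 (z, z),
        ‖A.tau q.1 q.2 x.2 - A.tau q.1 q.2 x.1‖ < ε := by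
    intro q ε hε z hz
    have h1 : ContinuousAt (A.tau q.1 q.2) z := (FinAt.tau_analyticAt (hmem q z hz)).continuousAt
    have ha : Tendsto (fun x : VV => A.tau q.1 q.2 x.2) (𝓝 (z, z)) (𝓝 (A.tau q.1 q.2 z)) :=
      h1.tendsto.comp (continuous_snd.tendsto ((z, z) : VV))
    have hb : Tendsto (fun x : VV => A.tau q.1 q.2 x.1) (𝓝 (z, z)) (𝓝 (A.tau q.1 q.2 z)) :=
      h1.tendsto.comp (continuous_fst.tendsto ((z, z) : VV))
    have h2 := (ha.sub hb).norm
    rw [sub_self, norm_zero] at h2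
    exact h2.eventually (gt_mem_nhds hε)
  obtain ⟨δa, hδa, hna⟩ := common_radius (ι := Fin A.N × Fin A.N)
    (P := fun q δ => ∀ z ∈ A.e q.1 '' (closure (S q.1) ∩ closure (S q.2)), ∀ w : V,
      ‖w - z‖ ≤ δ → w ∈ A.ov q.1 q.2 ∧ ‖A.tau q.1 q.2 w - A.tau q.1 q.2 z‖ < d ∧
      KData.Compat (G.D q.1) (G.D q.2) (z, w) (A.tau q.1 q.2 z, A.tau q.1 q.2 w)
        (A.J q.1 q.2 z) (A.J q.1 q.2 w) (mL (B.E q.1 q.2 z)) (mL (B.E q.1 q.2 w))) (by
    intro q
    obtain ⟨δ, hδ, h⟩ := unif_near (hpair q) (P := fun x => x.2 ∈ A.ov q.1 q.2 ∧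
      ‖A.tau q.1 q.2 x.2 - A.tau q.1 q.2 x.1‖ < d ∧
      KData.Compat (G.D q.1) (G.D q.2) x (A.tau q.1 q.2 x.1, A.tau q.1 q.2 x.2)
        (A.J q.1 q.2 x.1) (A.J q.1 q.2 x.2) (mL (B.E q.1 q.2 x.1)) (mL (B.E q.1 q.2 x.2))) (by
      intro z hz
      have h1 : ∀ᶠ x : VV in 𝓝 (z, z), x.2 ∈ A.ov q.1 q.2 :=
        (continuousAt_snd (p := ((z, z) : VV))).eventually
          ((A.isOpen_ov _ _).mem_nhds (hmem q z hz))
      exact h1.and ((hcont q d hdpos z hz).and (G.compat q.1 q.2 z (hmem q z hz))))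
    exact ⟨δ, hδ, fun e _ he z hz w hw => h z hz w (hw.trans he)⟩)
  set δ' := min δa d with hδ'
  have hδ'pos : 0 < δ' := lt_min hδa hdpos
  obtain ⟨δb, hδb, hnb⟩ := common_radius (ι := Fin A.N × Fin A.N)
    (P := fun q δ => ∀ z ∈ A.e q.1 '' (closure (S q.1) ∩ closure (S q.2)), ∀ w : V,
      ‖w - z‖ ≤ δ → ‖A.tau q.1 q.2 w - A.tau q.1 q.2 z‖ < δ') (by
    intro q
    obtain ⟨δ, hδ, h⟩ := unif_near (hpair q) (hcont q δ' hδ'pos)
    exact ⟨δ, hδ, fun e _ he z hz w hw => h z hz w (hw.trans he)⟩)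
  set δ1 := min δb δ' with hδ1
  have hδ1pos : 0 < δ1 := lt_min hδb hδ'pos
  have hδ'd : δ' ≤ d := min_le_right _ _
  -- the time
  have hT' : ∀ c, H156.Tube (G.D c) (G.Ud c) (A.O c) (G.h c) (A.e c '' closure (S c)) (p c).1
      (p c).2 d := hT d hdpos (min_le_left _ _)
  obtain ⟨t1, ht1, hL'⟩ := common_radius (ι := Fin A.N)
    (P := fun c t => LocPS (G.D c) (G.Ud c) (A.O c) (ovr A S c) f d t) (by
    intro c
    obtain ⟨t0, ht0, h⟩ := hL d hdpos (min_le_right _ _) c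
    exact ⟨t0 / 2, half_pos ht0, fun e he1 he2 => h e he1 (by linarith)⟩)
  obtain ⟨t2, ht2', hz⟩ := common_radius (ι := Fin A.N)
    (P := fun c t => ρ * t ≤ (p c).1 / 2 * δ1 ^ 2) (by
    intro c
    have hc := (hT' c).c_pos
    refine ⟨(p c).1 / 2 * δ1 ^ 2 / ρ, by positivity, fun e _ he2 => ?_⟩
    rw [le_div_iff₀ hρ] at he2
    linarith)
  set t := min t1 t2 with ht
  have htpos : 0 < t := lt_min ht1 ht2'
  have hmemK : ∀ c c' z, z ∈ ovr A S c → (A.e c).symm z ∈ S c' →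
      z ∈ A.e c '' (closure (S c) ∩ closure (S c')) := by
    rintro c c' z ⟨h1, h2⟩ h3
    exact ⟨(A.e c).symm z, ⟨subset_closure h2, subset_closure h3⟩, (A.e c).right_inv h1⟩
  exact ⟨{
    Vc := S
    open_V := hSo
    supp_V := hSs
    cl_V := hSc
    d := d
    t := t
    δ' := δ'
    δ1 := δ1
    d_pos := hdpos
    t_pos := htpos
    δ'_pos := hδ'pos
    δ1_pos := hδ1pos
    δ'_le := hδ'd
    δ1_le := min_le_right _ _
    loc := hL' t htpos (min_le_left _ _)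
    tube_cl := by
      intro c z hz w hw
      have := (hT' c).sub z hz (w - z) hw
      rwa [add_sub_cancel] at this
    zero := by
      intro c z hzc w h1 h2
      have h3 : ρ * t ≤ (p c).1 / 2 * ‖w - z‖ ^ 2 := by
        have h4 := hz t htpos (min_le_right _ _) c
        have hc := (hT' c).c_pos
        have h5 : δ1 ^ 2 ≤ ‖w - z‖ ^ 2 := pow_le_pow_left₀ hδ1pos.le h1 2
        nlinarith
      have h6 := (hT' c)
      have hzK := hov c hzc
      refine ⟨fun j k => ?_, fun j => ?_⟩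
      · have := h6.support_S P.two P.r_nonneg P.zero htpos hzK (v := w - z) h2 h3 j k
        rwa [add_sub_cancel] at this
      · have := h6.support_K P.two P.r_nonneg P.zero htpos hzK (v := w - z) h2 h3 j
        rwa [add_sub_cancel] at this
    near := by
      intro c c' z h1 h2 w hw
      exact hna δ' hδ'pos (min_le_left _ _) (c, c') z (hmemK c c' z h1 h2) w hw.le
    near1 := by
      intro c c' z h1 h2 w hw
      exact hnb δ1 hδ1pos (min_le_left _ _) (c, c') z (hmemK c c' z h1 h2) w hw.le }⟩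

end exist

end Vale.Agent.P267.H955
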